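import Mathlib

/-!
# P207, line N3, P12 (the smooth alternative): calculus relative to a local diffeomorphism

`grad q m` is the derivative of `m` with respect to `q`, `hess q m` the second derivative.
-/

noncomputable section

open Set Filter Topology
open scoped ContDiff

namespace Vale.Agent.P207.N3.H576

variable {E E₁ G G₁ M M₁ : Type} [NormedAddCommGroup E] [NormedSpace ℝ E]
  [NormedAddCommGroup E₁] [NormedSpace ℝ E₁] [NormedAddCommGroup G] [NormedSpace ℝ G]
  [NormedAddCommGroup G₁] [NormedSpace ℝ G₁]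
  [NormedAddCommGroup M] [NormedSpace ℝ M] [NormedAddCommGroup M₁] [NormedSpace ℝ M₁]

/-- the derivative of `q` at `u` is invertible -/
def Inv (q : E → G) (u : E) : Prop := (fderiv ℝ q u).IsInvertible

/-- the derivative of `m` with respect to `q` -/
def grad (q : E → G) (m : E → M) (u : E) : G →L[ℝ] M :=
  (fderiv ℝ m u) ∘L (fderiv ℝ q u).inverse

/-- the second derivative of `m` with respect to `q` -/
def hess (q : E → G) (m : E → M) (u : E) : G →L[ℝ] G →L[ℝ] M :=
  grad q (grad q m) u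

theorem grad_congr {q q' : E → G} {m m' : E → M} {u : E} (h1 : q =ᶠ[𝓝 u] q')
    (h2 : m =ᶠ[𝓝 u] m') : grad q m =ᶠ[𝓝 u] grad q' m' := by
  filter_upwards [h1.eventuallyEq_nhds, h2.eventuallyEq_nhds] with v hv1 hv2
  rw [grad, grad, hv1.fderiv_eq, hv2.fderiv_eq]

theorem hess_congr {q q' : E → G} {m m' : E → M} {u : E} (h1 : q =ᶠ[𝓝 u] q')
    (h2 : m =ᶠ[𝓝 u] m') : hess q m u = hess q' m' u :=
  (grad_congr h1 (grad_congr h1 h2)).eq_of_nhds

theorem grad_self {q : E → G} {u : E} (h : Inv q u) :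
    grad q q u = ContinuousLinearMap.id ℝ G := by
  obtain ⟨e, he⟩ := h
  rw [grad, ← he, ContinuousLinearMap.inverse_equiv]
  ext v
  simp

theorem grad_const {q : E → G} {u : E} (c : M) : grad q (fun _ => c) u = 0 := by
  rw [grad, fderiv_const_apply]
  simp

theorem grad_clm (T : M →L[ℝ] M₁) {q : E → G} {m : E → M} {u : E}
    (hm : DifferentiableAt ℝ m u) : grad q (fun v => T (m v)) u = T ∘L grad q m u := by
  have h1 : HasFDerivAt (fun v => T (m v)) (T ∘L fderiv ℝ m u) u :=
    T.hasFDerivAt.comp u hm.hasFDerivAt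
  rw [grad, grad, h1.fderiv]
  rfl

theorem grad_add {q : E → G} {m m' : E → M} {u : E}
    (hm : DifferentiableAt ℝ m u) (hm' : DifferentiableAt ℝ m' u) :
    grad q (fun v => m v + m' v) u = grad q m u + grad q m' u := by
  have h1 : HasFDerivAt (fun v => m v + m' v) (fderiv ℝ m u + fderiv ℝ m' u) u :=
    hm.hasFDerivAt.add hm'.hasFDerivAt
  rw [grad, grad, grad, h1.fderiv]
  ext v
  simp

theorem grad_sub {q : E → G} {m m' : E → M} {u : E}
    (hm : DifferentiableAt ℝ m u) (hm' : DifferentiableAt ℝ m' u) :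
    grad q (fun v => m v - m' v) u = grad q m u - grad q m' u := by
  have h1 : HasFDerivAt (fun v => m v - m' v) (fderiv ℝ m u - fderiv ℝ m' u) u :=
    hm.hasFDerivAt.sub hm'.hasFDerivAt
  rw [grad, grad, grad, h1.fderiv]
  ext v
  simp

/-- change of the chart -/
theorem grad_comp {q : E → G} {m : E → M} {b : E₁ → E} {u : E₁}
    (hq : DifferentiableAt ℝ q (b u)) (hm : DifferentiableAt ℝ m (b u))
    (hb : DifferentiableAt ℝ b u) (hi : Inv q (b u)) (hbi : Inv b u) :
    grad (fun v => q (b v)) (fun v => m (b v)) u = grad q m (b u) := by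
  obtain ⟨e, he⟩ := hi
  obtain ⟨e', he'⟩ := hbi
  have h1 : HasFDerivAt (fun v => q (b v)) ((fderiv ℝ q (b u)) ∘L fderiv ℝ b u) u :=
    hq.hasFDerivAt.comp u hb.hasFDerivAt
  have h2 : HasFDerivAt (fun v => m (b v)) ((fderiv ℝ m (b u)) ∘L fderiv ℝ b u) u :=
    hm.hasFDerivAt.comp u hb.hasFDerivAt
  rw [grad, grad, h1.fderiv, h2.fderiv, ← he, ← he']
  have h3 : ((e : E →L[ℝ] G) ∘L (e' : E₁ →L[ℝ] E)) = ((e'.trans e : E₁ ≃L[ℝ] G) : E₁ →L[ℝ] G) := by
    ext v
    simp
  rw [h3, ContinuousLinearMap.inverse_equiv, ContinuousLinearMap.inverse_equiv]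
  ext v
  simp

/-- change of the target coordinates of `q` -/
theorem grad_left {q : E → G} {m : E → M} {u : E} (L : G ≃L[ℝ] G₁)
    (hq : DifferentiableAt ℝ q u) (hi : Inv q u) :
    grad (fun v => L (q v)) m u = grad q m u ∘L (L.symm : G₁ →L[ℝ] G) := by
  obtain ⟨e, he⟩ := hi
  have h1 : HasFDerivAt (fun v => L (q v)) ((L : G →L[ℝ] G₁) ∘L fderiv ℝ q u) u :=
    L.hasFDerivAt.comp u hq.hasFDerivAt
  rw [grad, grad, h1.fderiv, ← he]
  have h3 : ((L : G →L[ℝ] G₁) ∘L (e : E →L[ℝ] G)) = ((e.trans L : E ≃L[ℝ] G₁) : E →L[ℝ] G₁) := by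
    ext v
    simp
  rw [h3, ContinuousLinearMap.inverse_equiv, ContinuousLinearMap.inverse_equiv]
  ext v
  simp

/-- adding a constant to `q` -/
theorem grad_q_add_const {q : E → G} {m : E → M} {u : E} (c : G) :
    grad (fun v => q v + c) m u = grad q m u := by
  rw [grad, grad, fderiv_add_const]

section smooth

/-- smooth near the point -/
def Sm (f : E → M) (u : E) : Prop := ∀ᶠ v in 𝓝 u, ContDiffAt ℝ ∞ f v

theorem Sm.at {f : E → M} {u : E} (h : Sm f u) : ContDiffAt ℝ ∞ f u := h.self_of_nhds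

theorem Sm.diff {f : E → M} {u : E} (h : Sm f u) : DifferentiableAt ℝ f u :=
  h.at.differentiableAt (by simp)

theorem Sm.ev {f : E → M} {u : E} (h : Sm f u) : ∀ᶠ v in 𝓝 u, Sm f v := h.eventually_nhds

theorem Sm.of_open {f : E → M} {O : Set E} (hO : IsOpen O) (h : ContDiffOn ℝ ∞ f O) {u : E}
    (hu : u ∈ O) : Sm f u := by
  filter_upwards [hO.mem_nhds hu] with v hv
  exact h.contDiffAt (hO.mem_nhds hv)

theorem Sm.of_contDiff {f : E → M} (h : ContDiff ℝ ∞ f) (u : E) : Sm f u :=
  Filter.Eventually.of_forall fun _ => h.contDiffAt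

theorem Sm.const (c : M) (u : E) : Sm (fun _ : E => c) u := Sm.of_contDiff contDiff_const u

theorem Sm.comp {f : E → M} {b : E₁ → E} {u : E₁} (hf : Sm f (b u)) (hb : Sm b u) :
    Sm (fun v => f (b v)) u := by
  filter_upwards [hb, hb.at.continuousAt.eventually hf] with v h1 h2
  exact h2.comp v h1

theorem Sm.add {f g : E → M} {u : E} (hf : Sm f u) (hg : Sm g u) : Sm (fun v => f v + g v) u := by
  filter_upwards [hf, hg] with v h1 h2
  exact h1.add h2

theorem Sm.sub {f g : E → M} {u : E} (hf : Sm f u) (hg : Sm g u) : Sm (fun v => f v - g v) u := by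
  filter_upwards [hf, hg] with v h1 h2
  exact h1.sub h2

theorem Sm.clm (T : M →L[ℝ] M₁) {f : E → M} {u : E} (hf : Sm f u) : Sm (fun v => T (f v)) u := by
  filter_upwards [hf] with v h1
  exact T.contDiff.contDiffAt.comp v h1

theorem Sm.congr {f g : E → M} {u : E} (hf : Sm f u) (h : f =ᶠ[𝓝 u] g) : Sm g u := by
  filter_upwards [hf, h.eventuallyEq_nhds] with v h1 h2
  exact h1.congr_of_eventuallyEq h2.symm

theorem Sm.fderiv {f : E → M} {u : E} (hf : Sm f u) : Sm (fderiv ℝ f) u := by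
  filter_upwards [hf] with v h1
  exact h1.fderiv_right (m := ∞) (by simp)

variable [CompleteSpace E]

theorem inv_open {q : E → G} {u : E} (hq : Sm q u) (hi : Inv q u) :
    ∀ᶠ v in 𝓝 u, Sm q v ∧ Inv q v := by
  obtain ⟨e, he⟩ := hi
  have h1 : ContinuousAt (fderiv ℝ q) u := hq.fderiv.at.continuousAt
  have h2 : range ((↑) : (E ≃L[ℝ] G) → (E →L[ℝ] G)) ∈ 𝓝 (fderiv ℝ q u) := by
    rw [← he]
    exact e.nhds
  filter_upwards [h1 h2, hq.ev] with v hv hv3
  exact ⟨hv3, hv⟩

theorem sm_grad {q : E → G} {m : E → M} {u : E} (hq : Sm q u)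
    (hm : Sm m u) (hi : Inv q u) : Sm (grad q m) u := by
  filter_upwards [inv_open hq hi, hm.fderiv, hq.fderiv] with v hv h2 h1
  obtain ⟨-, e, he⟩ := hv
  have h3 : ContDiffAt ℝ ∞ ContinuousLinearMap.inverse (_root_.fderiv ℝ q v) := by
    rw [← he]
    exact contDiffAt_map_inverse e
  have h4 : ContDiffAt ℝ ∞ (fun v => (_root_.fderiv ℝ q v).inverse) v := h3.comp v h1
  exact h2.clm_comp h4

theorem sm_hess {q : E → G} {m : E → M} {u : E} (hq : Sm q u)
    (hm : Sm m u) (hi : Inv q u) : Sm (hess q m) u :=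
  sm_grad hq (sm_grad hq hm hi) hi

theorem hess_comp [CompleteSpace E₁] {q : E → G} {m : E → M} {b : E₁ → E} {u : E₁}
    (hq : Sm q (b u)) (hm : Sm m (b u))
    (hb : Sm b u) (hi : Inv q (b u)) (hbi : Inv b u) :
    hess (fun v => q (b v)) (fun v => m (b v)) u = hess q m (b u) := by
  have h1 : ∀ᶠ v in 𝓝 u, grad (fun v => q (b v)) (fun v => m (b v)) v
      = (fun v => grad q m (b v)) v := by
    filter_upwards [hb.at.continuousAt.eventually (inv_open hq hi),
      hb.at.continuousAt.eventually hm.ev, inv_open hb hbi] with v hv2 hv3 hv4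
    exact grad_comp hv2.1.diff hv3.diff hv4.1.diff hv2.2 hv4.2
  have h5 : grad (fun v => q (b v)) (grad (fun v => q (b v)) (fun v => m (b v))) u
      = grad (fun v => q (b v)) (fun v => grad q m (b v)) u :=
    (grad_congr (Filter.EventuallyEq.refl _ _) h1).eq_of_nhds
  rw [hess, h5, grad_comp hq.diff (sm_grad hq hm hi).diff hb.diff hi hbi]
  rfl

theorem hess_clm (T : M →L[ℝ] M₁) {q : E → G} {m : E → M} {u : E} (hq : Sm q u)
    (hm : Sm m u) (hi : Inv q u) (v w : G) :
    hess q (fun v => T (m v)) u v w = T (hess q m u v w) := by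
  have h1 : grad q (fun v => T (m v)) =ᶠ[𝓝 u]
      fun v => (ContinuousLinearMap.compL ℝ G M M₁ T) (grad q m v) := by
    filter_upwards [hm.ev] with v hv3
    rw [grad_clm T hv3.diff]
    rfl
  have h5 := (grad_congr (Filter.EventuallyEq.refl (𝓝 u) q) h1).eq_of_nhds
  rw [hess, h5, grad_clm _ (sm_grad hq hm hi).diff]
  rfl

theorem hess_add {q : E → G} {m m' : E → M} {u : E} (hq : Sm q u)
    (hm : Sm m u) (hm' : Sm m' u) (hi : Inv q u) :
    hess q (fun v => m v + m' v) u = hess q m u + hess q m' u := by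
  have h1 : grad q (fun v => m v + m' v) =ᶠ[𝓝 u] fun v => grad q m v + grad q m' v := by
    filter_upwards [hm.ev, hm'.ev] with v hv3 hv4
    exact grad_add hv3.diff hv4.diff
  have h5 := (grad_congr (Filter.EventuallyEq.refl (𝓝 u) q) h1).eq_of_nhds
  rw [hess, h5, grad_add (sm_grad hq hm hi).diff (sm_grad hq hm' hi).diff]
  rfl

theorem hess_sub {q : E → G} {m m' : E → M} {u : E} (hq : Sm q u)
    (hm : Sm m u) (hm' : Sm m' u) (hi : Inv q u) :
    hess q (fun v => m v - m' v) u = hess q m u - hess q m' u := by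
  have h1 : grad q (fun v => m v - m' v) =ᶠ[𝓝 u] fun v => grad q m v - grad q m' v := by
    filter_upwards [hm.ev, hm'.ev] with v hv3 hv4
    exact grad_sub hv3.diff hv4.diff
  have h5 := (grad_congr (Filter.EventuallyEq.refl (𝓝 u) q) h1).eq_of_nhds
  rw [hess, h5, grad_sub (sm_grad hq hm hi).diff (sm_grad hq hm' hi).diff]
  rfl

/-- `q` is affine in `q` -/
theorem hess_self {q : E → G} {u : E} (hq : Sm q u) (hi : Inv q u) :
    hess q q u = 0 := by
  have h1 : grad q q =ᶠ[𝓝 u] fun _ => ContinuousLinearMap.id ℝ G := by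
    filter_upwards [inv_open hq hi] with v hv
    exact grad_self hv.2
  have h5 := (grad_congr (Filter.EventuallyEq.refl (𝓝 u) q) h1).eq_of_nhds
  rw [hess, h5, grad_const]

omit [CompleteSpace E] in
theorem hess_const {q : E → G} {u : E} (c : M) : hess q (fun _ => c) u = 0 := by
  have h1 : grad q (fun _ : E => c) = fun _ => (0 : G →L[ℝ] M) := by
    funext v
    exact grad_const c
  rw [hess, h1, grad_const]

/-- an affine function of `q` -/
theorem hess_affine (T : G →L[ℝ] M) (c : M) {q : E → G} {u : E} (hq : Sm q u)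
    (hi : Inv q u) : hess q (fun v => T (q v) + c) u = 0 := by
  rw [hess_add hq (hq.clm T) (Sm.const c u) hi, hess_const, add_zero]
  ext1 v
  ext1 w
  rw [hess_clm T hq hq hi, hess_self hq hi]
  simp

theorem hess_left {q : E → G} {m : E → M} {u : E} (L : G ≃L[ℝ] G₁)
    (hq : Sm q u) (hm : Sm m u) (hi : Inv q u) (v w : G₁) :
    hess (fun v => L (q v)) m u v w = hess q m u (L.symm v) (L.symm w) := by
  have h1 : grad (fun v => L (q v)) m =ᶠ[𝓝 u]
      fun v => ((ContinuousLinearMap.compL ℝ G₁ G M).flip (L.symm : G₁ →L[ℝ] G)) (grad q m v) := by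
    filter_upwards [inv_open hq hi] with v hv
    rw [grad_left L hv.1.diff hv.2]
    rfl
  have h5 := (grad_congr (Filter.EventuallyEq.refl (𝓝 u) (fun v => L (q v))) h1).eq_of_nhds
  rw [hess, h5, grad_left L hq.diff hi,
    grad_clm _ (sm_grad hq hm hi).diff]
  rfl

omit [CompleteSpace E] in
theorem hess_q_add_const {q : E → G} {m : E → M} {u : E} (c : G) :
    hess (fun v => q v + c) m u = hess q m u := by
  have h1 : grad (fun v => q v + c) m = grad q m := by
    funext v
    exact grad_q_add_const c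
  rw [hess, h1, grad_q_add_const]
  rfl

/-- a quadratic function of `q` -/
theorem hess_quad (S : G →L[ℝ] G →L[ℝ] M) {q : E → G} {u : E} (hq : Sm q u)
    (hi : Inv q u) (v w : G) :
    hess q (fun v => S (q v) (q v)) u v w = S v w + S w v := by
  have h1 : grad q (fun v => S (q v) (q v)) =ᶠ[𝓝 u] fun v => (S + S.flip) (q v) := by
    filter_upwards [inv_open hq hi] with v hv
    have hd := hv.1.diff.hasFDerivAt
    have h2 : HasFDerivAt (fun v => S (q v) (q v))
        ((S (q v)) ∘L (_root_.fderiv ℝ q v) + (S ∘L _root_.fderiv ℝ q v).flip (q v)) v :=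
      (S.hasFDerivAt.comp v hd).clm_apply hd
    obtain ⟨e, he⟩ := hv.2
    rw [grad, h2.fderiv, ← he, ContinuousLinearMap.inverse_equiv]
    ext z
    simp
  have h5 := (grad_congr (Filter.EventuallyEq.refl (𝓝 u) q) h1).eq_of_nhds
  rw [hess, h5, grad_clm _ hq.diff, grad_self hi]
  simp

/-- a function on a connected open set with vanishing second derivative is affine in `q` -/
theorem affine_of_hess {q : E → G} {m : E → M} {O : Set E} (hO : IsOpen O)
    (hc : IsPreconnected O) (hq : ContDiffOn ℝ ∞ q O) (hm : ContDiffOn ℝ ∞ m O)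
    (hi : ∀ u ∈ O, Inv q u) (hz : ∀ u ∈ O, hess q m u = 0) :
    ∃ (T : G →L[ℝ] M) (c : M), ∀ u ∈ O, m u = T (q u) + c := by
  rcases O.eq_empty_or_nonempty with rfl | ⟨u0, hu0⟩
  · exact ⟨0, 0, fun u hu => absurd hu (notMem_empty u)⟩
  have hq' : ∀ u ∈ O, Sm q u := fun u hu => Sm.of_open hO hq hu
  have hm' : ∀ u ∈ O, Sm m u := fun u hu => Sm.of_open hO hm hu
  have h1 : ∀ u ∈ O, _root_.fderiv ℝ (grad q m) u = 0 := by
    intro u hu
    have h2 := hz u hu
    obtain ⟨e, he⟩ := hi u hu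
    rw [hess, grad, ← he, ContinuousLinearMap.inverse_equiv] at h2
    ext1 v
    have h3 := congrArg (fun T => T (e v)) h2
    simpa using h3
  have h2 : DifferentiableOn ℝ (grad q m) O := fun u hu =>
    (sm_grad (hq' u hu) (hm' u hu) (hi u hu)).diff.differentiableWithinAt
  have h3 : ∀ u ∈ O, grad q m u = grad q m u0 := by
    intro u hu
    exact hO.is_const_of_fderiv_eq_zero hc h2 (fun v hv => h1 v hv) hu hu0
  set T := grad q m u0 with hT
  have h4 : ∀ u ∈ O, _root_.fderiv ℝ (fun u => m u - T (q u)) u = 0 := by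
    intro u hu
    have h5 := h3 u hu
    obtain ⟨e, he⟩ := hi u hu
    rw [grad, ← he, ContinuousLinearMap.inverse_equiv] at h5
    have h6 : HasFDerivAt (fun u => m u - T (q u))
        (_root_.fderiv ℝ m u - T ∘L _root_.fderiv ℝ q u) u :=
      (hm' u hu).diff.hasFDerivAt.sub (T.hasFDerivAt.comp u (hq' u hu).diff.hasFDerivAt)
    rw [h6.fderiv, ← h5, ← he]
    ext v
    simp
  have h5 : DifferentiableOn ℝ (fun u => m u - T (q u)) O := fun u hu =>
    ((hm' u hu).diff.sub
      (T.differentiableAt.comp u (hq' u hu).diff)).differentiableWithinAt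
  refine ⟨T, m u0 - T (q u0), fun u hu => ?_⟩
  have h6 : m u - T (q u) = m u0 - T (q u0) :=
    hO.is_const_of_fderiv_eq_zero hc h5 (fun v hv => h4 v hv) hu hu0
  rw [← h6]
  abel

end smooth

end Vale.Agent.P207.N3.H576
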