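import Vale.Agent.P207.N3.H576.Wten
import Vale.Agent.P207.N3.H662.Bas
import Vale.Agent.P207.N3.H442.SmoothSpec

/-!
# P207, line N3, P12 (VII): the coefficients of the linear system

When the tensor of `D` is pure trace, `∂² D - (lam / 3) ∂D ⊗ ∂D` is an affine function of `∂D` on
every leaf, with coefficients which are bounded near a point.
-/

noncomputable section

open Set Filter Topology Metric
open scoped ContDiff

namespace Vale.Agent.P207.N3.H576

variable {Γ X B : Type} [Group Γ] [MetricSpace X] [ProperSpace X] [MulAction Γ X]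
  [IsIsometricSMul Γ X] [TopologicalSpace B] [CompactSpace B] [T2Space B] [MulAction Γ B]
  [ContinuousConstSMul Γ B]

/-- `D` in the charts of two frames -/
def fD (L : Leaf Γ X B) (D : B → B → ℝ) (x y : X) : E2 × E2 → ℝ :=
  fun p => D (L.e x p.1) (L.e y p.2)

/-- the first derivative of `D` in the first variable, in the chart of `y` -/
def qB (L : Leaf Γ X B) (D : B → B → ℝ) (y : X) (a : E2) (η : B) : D2 :=
  fderiv ℝ (fun a' => D (L.e y a') η) a

/-- the second derivative of `D` in the first variable, in the chart of `y` -/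
def mB (L : Leaf Γ X B) (D : B → B → ℝ) (y : X) (a : E2) (η : B) : Q2 :=
  fderiv ℝ (fun a' => qB L D y a' η) a

variable {L : Leaf Γ X B} {D : B → B → ℝ}

theorem dp_fD (x y : X) (p : E2 × E2) : dp (fD L D y x) p = qB L D y p.1 (L.e x p.2) := rfl

theorem dpdp_fD (x y : X) (p : E2 × E2) : dp (dp (fD L D y x)) p = mB L D y p.1 (L.e x p.2) := rfl

theorem e_contOn (x : X) : ContinuousOn (L.e x) (closedBall (0 : E2) 3) := by
  have h := L.e_cont
  have h1 : ContinuousOn (fun u : E2 => ((x, u) : X × E2)) (closedBall (0 : E2) 3) := by fun_prop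
  exact h.comp h1 fun u hu => ⟨mem_univ _, hu⟩

theorem isOpen_OD (L : Leaf Γ X B) (x y : X) : IsOpen (H442.OD L x y) := by
  have h1 : IsOpen (ball (0 : E2) 3 ×ˢ ball (0 : E2) 3) := isOpen_ball.prod isOpen_ball
  have h2 : ContinuousOn (fun p : E2 × E2 => (L.e x p.1, L.e y p.2))
      (ball (0 : E2) 3 ×ˢ ball (0 : E2) 3) := by
    refine ContinuousOn.prodMk ?_ ?_
    · exact (e_contOn x).comp continuousOn_fst fun p hp => ball_subset_closedBall hp.1
    · exact (e_contOn y).comp continuousOn_snd fun p hp => ball_subset_closedBall hp.2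
  have h3 : IsOpen {q : B × B | q.1 ≠ q.2} := isOpen_ne_fun continuous_fst continuous_snd
  have h4 := h2.isOpen_inter_preimage h1 h3
  have h5 : H442.OD L x y = ball (0 : E2) 3 ×ˢ ball (0 : E2) 3 ∩
      (fun p : E2 × E2 => (L.e x p.1, L.e y p.2)) ⁻¹' {q : B × B | q.1 ≠ q.2} := by
    ext p
    simp only [H442.OD, mem_ofPred_eq, mem_inter_iff, mem_prod, mem_preimage, and_assoc]
  rw [h5]
  exact h4

/-- the hypotheses of (VII), for the frame `y` -/
structure PT (L : Leaf Γ X B) (D : B → B → ℝ) (y : X) (lam : ℝ) : Prop where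
  sm : ∀ x, ContDiffOn ℝ ∞ (fD L D y x) (H442.OD L y x)
  nd : ∀ x, ∀ p ∈ H442.OD L y x, Nd (fD L D y x) p
  pt : ∀ x, ∀ p ∈ H442.OD L y x, ∀ a b c d, Rd (fD L D y x) p a b c d = lam / 3 * I0 a b c d

variable {y : X} {lam : ℝ}

theorem PT.Sm (h : PT L D y lam) {x : X} {p : E2 × E2} (hp : p ∈ H442.OD L y x) :
    Sm (fD L D y x) p := Sm.of_open (isOpen_OD L y x) (h.sm x) hp

/-- on one disc -/
theorem PT.disc (h : PT L D y lam) {a : E2} (ha : a ∈ ball (0 : E2) 3) {x : X}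
    (hx : L.em x = L.e y a) (w w' : E2) : ∃ (T : D2 →L[ℝ] ℝ) (c : ℝ), ∀ u ∈ ball (0 : E2) 3,
      mB L D y a (L.e x u) w w' = lam / 3 * (qB L D y a (L.e x u) w * qB L D y a (L.e x u) w')
        + T (qB L D y a (L.e x u)) + c := by
  have hmem : ∀ u ∈ ball (0 : E2) 3, ((a, u) : E2 × E2) ∈ H442.OD L y x := by
    intro u hu
    refine ⟨ha, hu, ?_⟩
    have := L.e_ne x u (ball_subset_closedBall hu)
    rw [hx] at this
    exact this.symm
  set q : E2 → D2 := fun u => dp (fD L D y x) (a, u) with hq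
  set m : E2 → Q2 := fun u => dp (dp (fD L D y x)) (a, u) with hm
  have sq : ∀ u ∈ ball (0 : E2) 3, H576.Sm q u := fun u hu =>
    ((h.Sm (hmem u hu)).dp.right : _)
  have sm : ∀ u ∈ ball (0 : E2) 3, H576.Sm m u := fun u hu =>
    ((h.Sm (hmem u hu)).dp.dp.right : _)
  have hi : ∀ u ∈ ball (0 : E2) 3, Inv q u := fun u hu => h.nd x _ (hmem u hu)
  -- the quadratic form `y ↦ (lam / 3) (y w) (y w')`
  set S : D2 →L[ℝ] D2 →L[ℝ] ℝ := (ContinuousLinearMap.apply ℝ ℝ w : D2 →L[ℝ] ℝ).smulRight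
    ((lam / 3) • (ContinuousLinearMap.apply ℝ ℝ w' : D2 →L[ℝ] ℝ)) with hS
  have hSv : ∀ v v' : D2, S v v' = v w * (lam / 3 * v' w') := by
    intro v v'
    simp [hS]
  have s1 : ∀ u ∈ ball (0 : E2) 3, H576.Sm (fun u => m u w w') u := fun u hu =>
    (sm u hu).eval w w'
  have s2 : ∀ u ∈ ball (0 : E2) 3, H576.Sm (fun u => S (q u) (q u)) u := by
    intro u hu
    filter_upwards [sq u hu] with v hv
    exact (S.contDiff.contDiffAt.comp v hv).clm_apply hv
  have hz : ∀ u ∈ ball (0 : E2) 3, hess q (fun u => m u w w' - S (q u) (q u)) u = 0 := by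
    intro u hu
    rw [hess_sub (sq u hu) (s1 u hu) (s2 u hu) (hi u hu)]
    ext1 b
    ext1 b'
    have h1 := h.pt x _ (hmem u hu) b b' w w'
    have h2 : Rd (fD L D y x) (a, u) b b' w w' = hess q (fun u => m u w w') u b b' := by
      rw [Rd]
      exact hess_eval (sq u hu) (sm u hu) (hi u hu) b b' w w'
    rw [_root_.sub_apply, _root_.sub_apply, hess_quad S (sq u hu) (hi u hu), ← h2, h1, hSv, hSv, I0]
    simp only [_root_.zero_apply]
    ring
  obtain ⟨T, c, hT⟩ := affine_of_hess isOpen_ball (convex_ball (0 : E2) 3).isPreconnected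
    (fun u hu => (sq u hu).at.contDiffWithinAt)
    (fun u hu => ((s1 u hu).sub (s2 u hu)).at.contDiffWithinAt) hi hz
  refine ⟨T, c, fun u hu => ?_⟩
  have h1 := hT u hu
  rw [hSv] at h1
  have h2 : mB L D y a (L.e x u) w w' = m u w w' := rfl
  have h3 : qB L D y a (L.e x u) = q u := rfl
  rw [h2, h3]
  linear_combination h1

/-- an affine function of `q` which vanishes on a disc -/
theorem PT.uniq (h : PT L D y lam) {a : E2} (ha : a ∈ ball (0 : E2) 3) {x : X}
    (hx : L.em x = L.e y a) {T T' : D2 →L[ℝ] ℝ} {c c' : ℝ}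
    (he : ∀ u ∈ ball (0 : E2) 3, T (qB L D y a (L.e x u)) + c = T' (qB L D y a (L.e x u)) + c') :
    T = T' ∧ c = c' := by
  have h0 : (0 : E2) ∈ ball (0 : E2) 3 := mem_ball_self (by norm_num)
  have hmem : ((a, 0) : E2 × E2) ∈ H442.OD L y x := by
    refine ⟨ha, h0, ?_⟩
    have := L.e_ne x 0 (ball_subset_closedBall h0)
    rw [hx] at this
    exact this.symm
  set q : E2 → D2 := fun u => dp (fD L D y x) (a, u) with hq
  have sq : H576.Sm q 0 := ((h.Sm hmem).dp.right : _)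
  obtain ⟨e, hee⟩ := h.nd x _ hmem
  have hd : HasFDerivAt q (fderiv ℝ q 0) 0 := sq.diff.hasFDerivAt
  have h1 : HasFDerivAt (fun u => T (q u) + c) (T ∘L fderiv ℝ q 0) 0 :=
    (T.hasFDerivAt.comp 0 hd).add_const c
  have h2 : HasFDerivAt (fun u => T' (q u) + c') (T' ∘L fderiv ℝ q 0) 0 :=
    (T'.hasFDerivAt.comp 0 hd).add_const c'
  have h3 : (fun u => T (q u) + c) =ᶠ[𝓝 0] fun u => T' (q u) + c' := by
    filter_upwards [isOpen_ball.mem_nhds h0] with u hu
    exact he u hu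
  have h4 : T ∘L fderiv ℝ q 0 = T' ∘L fderiv ℝ q 0 := by
    rw [← h1.fderiv, ← h2.fderiv]
    exact h3.fderiv_eq
  have h5 : T = T' := by
    have h6 : fderiv ℝ q 0 = e := hee.symm
    rw [h6] at h4
    ext v
    have h7 := congrArg (fun A : E2 →L[ℝ] ℝ => A (e.symm v)) h4
    simpa using h7
  refine ⟨h5, ?_⟩
  have h6 := he 0 h0
  rw [h5] at h6
  exact add_left_cancel h6

/-- on the whole leaf -/
theorem PT.leaf (h : PT L D y lam) {a : E2} (ha : a ∈ ball (0 : E2) 3) (w w' : E2) :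
    ∃ (T : D2 →L[ℝ] ℝ) (c : ℝ), ∀ η, η ≠ L.e y a →
      mB L D y a η w w' = lam / 3 * (qB L D y a η w * qB L D y a η w') + T (qB L D y a η) + c := by
  obtain ⟨η1, hη1⟩ : ∃ η1 : B, L.e y a ≠ η1 :=
    ⟨L.em y, L.e_ne y a (ball_subset_closedBall ha)⟩
  obtain ⟨x, hx1, hx2, -⟩ := L.exists_frame (L.e y a) η1 hη1 0
  obtain ⟨T, c, hT⟩ := h.disc ha hx1 w w'
  refine ⟨T, c, fun η hη => ?_⟩
  obtain ⟨c₀, hc₀⟩ := H662.exhaust L (x := x) (η := η) (by rw [hx1]; exact hη)
  set t : ℝ := max c₀ L.t1 with ht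
  have ht1 : L.t1 ≤ t := le_max_right _ _
  obtain ⟨u, hu, hue⟩ := hc₀ t (le_max_left _ _)
  have hx3 : L.em (L.φ (-t) x) = L.e y a := by rw [L.em_φ, hx1]
  obtain ⟨T', c', hT'⟩ := h.disc ha hx3 w w'
  have hback : L.φ t (L.φ (-t) x) = x := by
    rw [← L.φ_add, add_neg_cancel, L.φ_zero]
  have hsub : ∀ v ∈ ball (0 : E2) 3, ∃ v' ∈ ball (0 : E2) 3, L.e (L.φ (-t) x) v' = L.e x v := by
    intro v hv
    have h1 := L.engulf (L.φ (-t) x) t ht1
    rw [hback] at h1
    obtain ⟨v', hv', he'⟩ := h1 ⟨v, ball_subset_closedBall hv, rfl⟩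
    exact ⟨v', ball_subset_ball (by norm_num) hv', he'⟩
  have huniq : T = T' ∧ c = c' := by
    refine h.uniq ha hx1 fun v hv => ?_
    obtain ⟨v', hv', he'⟩ := hsub v hv
    have h1 := hT v hv
    have h2 := hT' v' hv'
    rw [he'] at h2
    linarith
  have h3 := hT' u (ball_subset_ball (by norm_num) hu)
  rw [hue] at h3
  rw [huniq.1, huniq.2]
  exact h3

end Vale.Agent.P207.N3.H576
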