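import Vale.Agent.P207.N3.H576.Kill
import Vale.Agent.P207.N3.H442.TenL
import Vale.Agent.P207.N3.H828.SmC

/-!
# P207, line N3, P12: (VII) over the interface of the smooth alternative

`kill_Rt`: if the curvature `Rt` of `D` is of pure trace for all pairs, `lam < 0`, then `D (ep y)`
does not tend to `-∞` at `ep y`.
-/

noncomputable section

open Set Filter Topology Metric MeasureTheory
open scoped ContDiff

set_option maxSynthPendingDepth 3
set_option linter.unusedSectionVars false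

namespace Vale.Agent.P207.N3.H576

theorem dp_eq_dA {M : Type} [NormedAddCommGroup M] [NormedSpace ℝ M] (f : E2 × E2 → M)
    (z : E2 × E2) : dp f z = H442.dA f z := rfl

theorem du_eq_dB {M : Type} [NormedAddCommGroup M] [NormedSpace ℝ M] (f : E2 × E2 → M)
    (z : E2 × E2) : du f z = H442.dB f z := rfl

theorem dv_dv_eq {f : E2 × E2 → ℝ} {z : E2 × E2} (hf : Sm f z) (v w : E2) :
    H442.dv v (H442.dv w f) z = dp (dp f) z v w := by
  have h1 : HasFDerivAt (fun a => dp f (a, z.2)) (dp (dp f) z) z.1 := has_dp hf.dp.diff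
  have h2 : HasFDerivAt (fun a => dp f (a, z.2) w)
      ((ContinuousLinearMap.apply ℝ ℝ w).comp (dp (dp f) z)) z.1 :=
    (ContinuousLinearMap.apply ℝ ℝ w).hasFDerivAt.comp z.1 h1
  exact congrArg (fun A : E2 →L[ℝ] ℝ => A v) h2.fderiv

theorem tend_right (z : E2 × E2) : Tendsto (fun u : E2 => (z.1, u)) (𝓝 z.2) (𝓝 z) := by
  have : ContinuousAt (fun u : E2 => (z.1, u)) z.2 := by fun_prop
  exact this

/-- the two versions of the tensor agree -/
theorem Cu_eq {f : E2 × E2 → ℝ} {z : E2 × E2} (hf : Sm f z) (hn : Nd f z) (v w : E2)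
    (ζ ζ' : D2) : H442.Cu f v w ζ ζ' z = Rd f z ζ ζ' v w := by
  have hq : Sm (fun u => dp f (z.1, u)) z.2 := hf.dp.right
  have hm : Sm (fun u => dp (dp f) (z.1, u)) z.2 := hf.dp.dp.right
  have h1 : H442.Cu f v w ζ ζ' z = hess (fun u => dp f (z.1, u))
      (fun u => H442.dv v (H442.dv w f) (z.1, u)) z.2 ζ ζ' :=
    H442.DZ_DZ hf.at hn (H442.dv_contDiffAt v (H442.dv_contDiffAt w hf.at)) ζ ζ'
  rw [h1, Rd, hess_eval hq hm hn]
  have h2 : (fun u => H442.dv v (H442.dv w f) (z.1, u)) =ᶠ[𝓝 z.2]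
      fun u => dp (dp f) (z.1, u) v w := by
    filter_upwards [(tend_right z).eventually hf.ev] with u hu
    exact dv_dv_eq hu v w
  rw [hess_congr (Filter.EventuallyEq.refl _ _) h2]

theorem eb_eq (i : Fin 2) : H442.eb i = bv i := rfl

theorem ec_eq (i : Fin 2) : H442.ec i = dv i := rfl

/-- pure trace curvature -/
theorem pure_of_CM {f : E2 × E2 → ℝ} {z : E2 × E2} {lam : ℝ} (hf : Sm f z) (hn : Nd f z)
    (h : H442.CM f z = H442.Pu lam) (a b : D2) (c d : E2) :
    Rd f z a b c d = lam / 3 * I0 a b c d := by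
  have hI : IsT (fun a b c d => lam / 3 * I0 a b c d) := by
    have h0 : IsT (fun _ _ _ _ => (0 : ℝ) : T4) := by
      refine ⟨fun _ _ _ => ⟨fun _ _ => ?_, fun _ _ => ?_⟩, fun _ _ _ => ⟨fun _ _ => ?_, fun _ _ => ?_⟩,
        fun _ _ _ => ⟨fun _ _ => ?_, fun _ _ => ?_⟩, fun _ _ _ => ⟨fun _ _ => ?_, fun _ _ => ?_⟩⟩
      all_goals simp
    have h1 := h0.sub_mul I0_isT (-(lam / 3))
    have h2 : (fun y y' w w' => (0 : ℝ) - -(lam / 3) * I0 y y' w w') =
        fun a b c d => lam / 3 * I0 a b c d := by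
      funext y y' w w'
      ring
    rwa [h2] at h1
  refine congrFun (congrFun (congrFun (congrFun
    (IsT.ext (Rd_isT f z) hI fun k l i j => ?_) a) b) c) d
  have h1 := Cu_eq hf hn (bv i) (bv j) (dv k) (dv l)
  have h2 : H442.CM f z (i, j) (k, l) = H442.Pu lam (i, j) (k, l) := by rw [h]
  have h3 : H442.CM f z (i, j) (k, l) = H442.Cu f (bv i) (bv j) (dv k) (dv l) z := rfl
  rw [co, ← h1, ← h3, h2, co, I0]
  simp only [H442.Pu, H442.swp, Matrix.smul_apply, Matrix.add_apply, Matrix.one_apply, dv_apply,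
    bv_apply, smul_eq_mul]
  fin_cases i <;> fin_cases j <;> fin_cases k <;> fin_cases l <;> simp

variable {Γ X B : Type} [Group Γ] [MetricSpace X] [ProperSpace X] [MulAction Γ X]
  [IsIsometricSMul Γ X] [TopologicalSpace B] [CompactSpace B] [T2Space B] [MulAction Γ B]
  [ContinuousConstSMul Γ B] {L : Leaf Γ X B} {D : B → B → ℝ}

open H442 (Smooth OD Rt CM TT Pu act mt)

/-- at all pairs of charts -/
theorem CM_of_Rt (S : Smooth L D) {lam : ℝ}
    (hR : ∀ x η, η ≠ L.ep x → Rt L D x η = Pu lam) {y x : X} {p : E2 × E2} (hp : p ∈ OD L y x) :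
    CM (TT L D y x) p = Pu lam := by
  obtain ⟨x', hx'⟩ := H728.exists_ep L (L.e y p.1)
  have hne : L.e x p.2 ≠ L.ep x' := by
    rw [hx']
    exact hp.2.2.symm
  have h1 := H442.Rt_chart S (x := y) (x' := x') (y := x) (a := p.1) (b := p.2) hp.1 hp.2.1 hx' rfl
    hne
  rw [hR x' _ hne] at h1
  have h2 : (0 : E2) ∈ L.dm x' y :=
    H442.mem_dm H442.zero_mem hp.1 (by rw [L.e_zero, hx'])
  obtain ⟨P, hP, -⟩ := H442.exists_equiv S h2
  rw [hP] at h1
  have hu := H442.mt_isUnit P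
  have hu' := H442.mt_isUnit P.symm
  have h3 : act (mt (P.symm : E2 →L[ℝ] E2)) (Pu lam) = CM (TT L D y x) (p.1, p.2) := by
    rw [h1, ← H442.mt_inv, H442.act_inv hu]
  rw [H442.act_Pu hu'] at h3
  exact h3.symm

theorem PT_of_CM (S : Smooth L D) {lam : ℝ} {y : X}
    (hR : ∀ x, ∀ p ∈ OD L y x, CM (TT L D y x) p = Pu lam) : PT L D y lam where
  sm x := S.D_smooth y x
  nd x p hp := H442.TT_nd S hp
  pt x p hp a b c d := by
    have h1 : Sm (fD L D y x) p := Sm.of_open (isOpen_OD L y x) (S.D_smooth y x) hp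
    exact pure_of_CM h1 (H442.TT_nd S hp) (hR x p hp) a b c d

/-- **(VII)** -/
theorem kill_Rt (S : Smooth L D) {lam : ℝ} (hlam : lam < 0)
    (hR : ∀ x η, η ≠ L.ep x → Rt L D x η = Pu lam) {y : X}
    (hy : Tendsto (fun u => D (L.e y u) (L.ep y)) (𝓝[≠] 0) atBot) : False := by
  refine kill (y := y) (PT_of_CM S (lam := lam) fun x p hp => CM_of_Rt S hR hp) hlam ?_
  rw [L.e_zero]
  exact hy

variable [MeasurableSpace B] [BorelSpace B] {A : Area L}

/-- **(VII)**, for `A.D`, which is symmetric -/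
theorem kill_area (S : Smooth L A.D) {lam : ℝ} (hlam : lam < 0)
    (hR : ∀ x η, η ≠ L.ep x → Rt L A.D x η = Pu lam) {y : X}
    (hy : Tendsto (fun u => A.D (L.ep y) (L.e y u)) (𝓝[≠] 0) atBot) : False := by
  refine kill_Rt S hlam hR (y := y) (hy.congr' ?_)
  have h1 : ∀ᶠ u in 𝓝[≠] (0 : E2), u ∈ ball (0 : E2) 3 :=
    mem_nhdsWithin_of_mem_nhds (isOpen_ball.mem_nhds H442.zero_mem)
  filter_upwards [h1, self_mem_nhdsWithin] with u hu h0
  refine H828.D_symm A ?_
  intro h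
  apply h0
  rw [← L.e_zero] at h
  exact (L.e_inj y (ball_subset_closedBall H442.zero_mem) (ball_subset_closedBall hu) h).symm

end Vale.Agent.P207.N3.H576
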