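import Vale.Agent.P207.N3.H576.Glue

/-!
# P207, line N3, P12: the trace, and (VII) over `VV`

`trFree_of_det2`: the equation for `det2` (442) gives `TrFree (Wd lam f z)`.
`trFree_VV`: the same for 828's tensor `VV`. `kill_VV`: (VII) if `VV = 0`.
-/

noncomputable section

open Set Filter Topology Metric MeasureTheory
open scoped ContDiff

set_option maxSynthPendingDepth 3
set_option linter.unusedSectionVars false

namespace Vale.Agent.P207.N3.H576

/-- the equation for the determinant gives the trace -/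
theorem trFree_of_det2 {f : E2 × E2 → ℝ} {z : E2 × E2} {lam : ℝ} (hf : Sm f z) (hn : Nd f z)
    {N M : E2 → ℝ} (hN : ContDiffAt ℝ ∞ N z.1) (hN0 : N z.1 ≠ 0) (hM0 : ∀ᶠ b in 𝓝 z.2, M b ≠ 0)
    (hMA : ∀ᶠ c in 𝓝 z, H442.det2 f c ^ 2 = Real.exp (2 * lam * f c) * N c.1 * M c.2) :
    TrFree (Wd lam f z) := by
  refine Wd_trFree fun y w => ?_
  have hT := Rd_isT f z
  have key : ∀ k : Fin 2, ∑ i, Rd f z (dv i) y (bv i) (bv k) = lam * y (bv k) := by
    intro k
    have h1 := H442.trace_Cu (T := f) (p := z) (lam := lam) hf hn hN hN0 hM0 hMA k y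
    have e1 : H442.Cu f (H442.eb 0) (H442.eb k) y (H442.ec 0) z = Rd f z y (dv 0) (bv 0) (bv k) :=
      Cu_eq hf hn _ _ _ _
    have e2 : H442.Cu f (H442.eb 1) (H442.eb k) y (H442.ec 1) z = Rd f z y (dv 1) (bv 1) (bv k) :=
      Cu_eq hf hn _ _ _ _
    rw [e1, e2, (Rd_symm4 hf hn).1 y (dv 0), (Rd_symm4 hf hn).1 y (dv 1)] at h1
    rw [Fin.sum_univ_two]
    exact h1
  have h2 : ∀ i : Fin 2, Rd f z (dv i) y (bv i) w =
      w 0 * Rd f z (dv i) y (bv i) (bv 0) + w 1 * Rd f z (dv i) y (bv i) (bv 1) := by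
    intro i
    conv_lhs => rw [vec_eq w]
    have h3 := hT.l4 (dv i) y (bv i)
    rw [h3.map_add, h3.map_smul, h3.map_smul, smul_eq_mul, smul_eq_mul]
  have k0 := key 0
  have k1 := key 1
  rw [Fin.sum_univ_two] at k0 k1 ⊢
  rw [h2 0, h2 1, cov_apply y w]
  linear_combination w 0 * k0 + w 1 * k1

variable {Γ X B : Type} [Group Γ] [MetricSpace X] [ProperSpace X] [MulAction Γ X]
  [IsIsometricSMul Γ X] [TopologicalSpace B] [CompactSpace B] [T2Space B] [MulAction Γ B]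
  [ContinuousConstSMul Γ B] {L : Leaf Γ X B} {D : B → B → ℝ}

open H828 (SmB VV ff od frp)

/-- the trace of `VV` -/
theorem trFree_VV (H : SmB L D) {lam : ℝ}
    (h : ∀ x y : X, ∀ p ∈ H442.OD L x y, ∃ N M : E2 → ℝ, ContDiffAt ℝ ∞ N p.1 ∧ N p.1 ≠ 0 ∧
      (∀ᶠ b in 𝓝 p.2, M b ≠ 0) ∧ ∀ᶠ c in 𝓝 p, H442.det2 (ff L D (x, y)) c ^ 2 =
        Real.exp (2 * lam * ff L D (x, y) c) * N c.1 * M c.2) {x : X} {η : B}
    (hne : η ≠ L.ep x) : TrFree (VV L D lam x η) := by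
  have h1 := H828.mem_od_frp (L := L) (x := x) hne
  obtain ⟨N, M, hN, hN0, hM0, hMA⟩ := h x (frp L η) ((0 : E2), (0 : E2)) h1
  exact trFree_of_det2 (H.sm h1) (H.Nd h1) hN hN0 hM0 hMA

/-- `VV = 0` gives pure trace in all charts -/
theorem PT_of_VV (H : SmB L D) {lam : ℝ}
    (hV : ∀ x η, η ≠ L.ep x → ∀ y y' w w', VV L D lam x η y y' w w' = 0) (y : X) :
    PT L D y lam where
  sm x := fun p hp => (H.sm (q := ((y, x), p)) hp).at.contDiffWithinAt
  nd x p hp := H.Nd (q := ((y, x), p)) hp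
  pt x p hp a b c d := by
    set y' := frp L (L.e y p.1) with hy'
    have h0 : L.e y' 0 = L.e y p.1 := H828.e_frp _
    have h1 : p.1 ∈ L.dm y y' := H442.mem_dm hp.1 H442.zero_mem h0.symm
    have h2 : L.τ y y' p.1 = 0 := H442.tau_of_eq H442.zero_mem h0.symm
    have h3 : p.2 ∈ L.dm x x := H828.self_dm hp.2.1
    have h4 : L.τ x x p.2 = p.2 := H828.tau_self hp.2.1
    obtain ⟨J, hJ⟩ := H.inv_tau h1
    have h5 := H.Rd_tau h1 h3 hp.2.2 hJ
    rw [h2, h4] at h5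
    have h6 := Wd_act lam h5
    have hne : L.e x p.2 ≠ L.ep y' := by
      rw [← L.e_zero, h0]
      exact hp.2.2.symm
    have h7 := H.VV_eq lam (x := y') (y := x) (u := p.2) hp.2.1 hne
    have h8 : Wd lam (ff L D (y, x)) (p.1, p.2) a b c d = 0 := by
      rw [h6, ← h7]
      exact hV y' _ hne _ _ _ _
    have h9 : Rd (fD L D y x) p a b c d - lam / 3 * I0 a b c d = 0 := h8
    linarith

/-- **(VII)** over the smooth boundary -/
theorem kill_VV (H : SmB L D) {lam : ℝ} (hlam : lam < 0)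
    (hV : ∀ x η, η ≠ L.ep x → ∀ y y' w w', VV L D lam x η y y' w w' = 0) {y : X}
    (hy : Tendsto (fun u => D (L.e y u) (L.ep y)) (𝓝[≠] 0) atBot) : False := by
  refine kill (y := y) (PT_of_VV H hV y) hlam ?_
  rw [L.e_zero]
  exact hy

end Vale.Agent.P207.N3.H576
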