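import Mathlib

/-!
# P207, line N3, P12: a positive solution of a linear second order system on a punctured disc of the
plane cannot tend to zero at the puncture
-/

noncomputable section

open Set Filter Topology Metric

namespace Vale.Agent.P207.N3.H576

/-- the plane -/
abbrev PL : Type := EuclideanSpace ℝ (Fin 2)

/-- the one-jet -/
def Jt (u : PL → ℝ) (a : PL) : ℝ × (PL →L[ℝ] ℝ) := (u a, fderiv ℝ u a)

section

variable {u : PL → ℝ} {r C : ℝ}

/-- the assumptions on a set -/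
structure Sys (u : PL → ℝ) (C : ℝ) (S : Set PL) : Prop where
  d1 : ∀ a ∈ S, DifferentiableAt ℝ u a
  d2 : ∀ a ∈ S, DifferentiableAt ℝ (fderiv ℝ u) a
  bd : ∀ a ∈ S, ‖fderiv ℝ (fderiv ℝ u) a‖ ≤ C * (|u a| + ‖fderiv ℝ u a‖)

theorem Sys.mono {S S' : Set PL} (h : Sys u C S) (hs : S' ⊆ S) : Sys u C S' :=
  ⟨fun a ha => h.d1 a (hs ha), fun a ha => h.d2 a (hs ha), fun a ha => h.bd a (hs ha)⟩

theorem Sys.hasFDerivAt {S : Set PL} (h : Sys u C S) {a : PL} (ha : a ∈ S) :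
    HasFDerivAt (Jt u) ((fderiv ℝ u a).prod (fderiv ℝ (fderiv ℝ u) a)) a :=
  (h.d1 a ha).hasFDerivAt.prodMk (h.d2 a ha).hasFDerivAt

theorem Sys.norm_le {S : Set PL} (h : Sys u C S) (hC : 0 ≤ C) {a : PL} (ha : a ∈ S) (v : PL) :
    ‖((fderiv ℝ u a).prod (fderiv ℝ (fderiv ℝ u) a)) v‖ ≤ (2 * C + 1) * ‖v‖ * ‖Jt u a‖ := by
  have h1 : |u a| ≤ ‖Jt u a‖ := by
    have := norm_fst_le (Jt u a)
    exact this
  have h2 : ‖fderiv ℝ u a‖ ≤ ‖Jt u a‖ := norm_snd_le (Jt u a)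
  have h3 : ‖fderiv ℝ u a v‖ ≤ ‖fderiv ℝ u a‖ * ‖v‖ := ContinuousLinearMap.le_opNorm _ _
  have h4 : ‖fderiv ℝ (fderiv ℝ u) a v‖ ≤ ‖fderiv ℝ (fderiv ℝ u) a‖ * ‖v‖ :=
    ContinuousLinearMap.le_opNorm _ _
  have h5 := h.bd a ha
  have hn : 0 ≤ ‖v‖ := norm_nonneg v
  have hj : 0 ≤ ‖Jt u a‖ := norm_nonneg _
  have h6 : ((fderiv ℝ u a).prod (fderiv ℝ (fderiv ℝ u) a)) v
      = (fderiv ℝ u a v, fderiv ℝ (fderiv ℝ u) a v) := rfl
  rw [h6, Prod.norm_def]
  refine max_le ?_ ?_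
  · calc ‖fderiv ℝ u a v‖ ≤ ‖fderiv ℝ u a‖ * ‖v‖ := h3
      _ ≤ ‖Jt u a‖ * ‖v‖ := by gcongr
      _ ≤ (2 * C + 1) * ‖v‖ * ‖Jt u a‖ := by
          nlinarith [mul_nonneg (mul_nonneg hC hn) hj]
  · calc ‖fderiv ℝ (fderiv ℝ u) a v‖ ≤ ‖fderiv ℝ (fderiv ℝ u) a‖ * ‖v‖ := h4
      _ ≤ (C * (|u a| + ‖fderiv ℝ u a‖)) * ‖v‖ := by gcongr
      _ ≤ (C * (‖Jt u a‖ + ‖Jt u a‖)) * ‖v‖ := by gcongr
      _ ≤ (2 * C + 1) * ‖v‖ * ‖Jt u a‖ := by
          nlinarith [mul_nonneg hn hj]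

/-- Gronwall along a segment -/
theorem Sys.segment_le (hC : 0 ≤ C) {a b : PL} (h : Sys u C (segment ℝ a b)) :
    ‖Jt u b‖ ≤ Real.exp ((2 * C + 1) * ‖b - a‖) * ‖Jt u a‖ := by
  set g : ℝ → ℝ × (PL →L[ℝ] ℝ) := fun s => Jt u (a + s • (b - a)) with hg
  have hmem : ∀ s ∈ Icc (0 : ℝ) 1, a + s • (b - a) ∈ segment ℝ a b := by
    intro s hs
    rw [segment_eq_image']
    exact ⟨s, hs, rfl⟩
  have hder : ∀ s ∈ Icc (0 : ℝ) 1, HasDerivAt g
      (((fderiv ℝ u (a + s • (b - a))).prod (fderiv ℝ (fderiv ℝ u) (a + s • (b - a)))) (b - a)) s := by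
    intro s hs
    have h1 := h.hasFDerivAt (hmem s hs)
    have h2 : HasDerivAt (fun s : ℝ => a + s • (b - a)) (b - a) s := by
      have h3 := ((hasDerivAt_id s).smul_const (b - a)).const_add a
      simpa using h3
    exact h1.comp_hasDerivAt s h2
  have hcont : ContinuousOn g (Icc 0 1) := fun s hs => (hder s hs).continuousAt.continuousWithinAt
  have hbound : ∀ s ∈ Ico (0 : ℝ) 1,
      ‖((fderiv ℝ u (a + s • (b - a))).prod (fderiv ℝ (fderiv ℝ u) (a + s • (b - a)))) (b - a)‖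
        ≤ ((2 * C + 1) * ‖b - a‖) * ‖g s‖ + 0 := by
    intro s hs
    rw [add_zero]
    exact h.norm_le hC (hmem s (Ico_subset_Icc_self hs)) (b - a)
  have h0 : ‖g 0‖ ≤ ‖Jt u a‖ := by
    simp [hg]
  have h1 := norm_le_gronwallBound_of_norm_deriv_right_le hcont
    (fun s hs => (hder s (Ico_subset_Icc_self hs)).hasDerivWithinAt) h0 hbound 1
    (right_mem_Icc.2 zero_le_one)
  rw [gronwallBound_ε0] at h1
  have h2 : g 1 = Jt u b := by
    simp [hg]
  rw [h2] at h1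
  rw [mul_comm]
  simpa using h1

end

/-- the punctured disc -/
def PD (r : ℝ) : Set PL := {a | ‖a‖ < r ∧ a ≠ 0}

theorem e0n : ‖(EuclideanSpace.single 0 1 : PL)‖ = 1 := by simp
theorem e1n : ‖(EuclideanSpace.single 1 1 : PL)‖ = 1 := by simp

/-- positivity and the limit zero give a lower bound of the radial derivative -/
theorem radial_ge {u : PL → ℝ} {r M : ℝ} (hM : 0 ≤ M)
    (hd : ∀ a ∈ PD r, DifferentiableAt ℝ u a)
    (hp : ∀ a ∈ PD r, 0 < u a) (h0 : Tendsto u (𝓝[≠] 0) (𝓝 0)) {v : PL} (hv : ‖v‖ = 1) {t : ℝ}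
    (ht : 0 < t) (htr : t < r)
    (hl : ∀ s ∈ Ioc 0 t, ‖fderiv ℝ u (t • v) - fderiv ℝ u (s • v)‖ ≤ M * (t - s)) :
    -(M * t) ≤ fderiv ℝ u (t • v) v := by
  by_contra hcon
  push Not at hcon
  have hv0 : v ≠ 0 := by
    intro h
    rw [h, norm_zero] at hv
    norm_num at hv
  have hmem : ∀ s ∈ Ioc 0 t, s • v ∈ PD r := by
    intro s hs
    refine ⟨?_, smul_ne_zero hs.1.ne' hv0⟩
    rw [norm_smul, hv, mul_one, Real.norm_of_nonneg hs.1.le]
    exact hs.2.trans_lt htr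
  have hder : ∀ s ∈ Ioc 0 t, HasDerivAt (fun s : ℝ => u (s • v)) (fderiv ℝ u (s • v) v) s := by
    intro s hs
    have h2 : HasDerivAt (fun s : ℝ => s • v) v s := by
      have h3 := (hasDerivAt_id s).smul_const v
      simpa using h3
    exact (hd _ (hmem s hs)).hasFDerivAt.comp_hasDerivAt s h2
  have hneg : ∀ s ∈ Ioc 0 t, fderiv ℝ u (s • v) v ≤ 0 := by
    intro s hs
    have h1 := hl s hs
    have h2 : ‖(fderiv ℝ u (t • v) - fderiv ℝ u (s • v)) v‖ ≤ M * (t - s) := by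
      have := ContinuousLinearMap.le_opNorm (fderiv ℝ u (t • v) - fderiv ℝ u (s • v)) v
      rw [hv, mul_one] at this
      exact this.trans h1
    rw [_root_.sub_apply, Real.norm_eq_abs, abs_le] at h2
    nlinarith [h2.1, h2.2, mul_nonneg hM hs.1.le]
  have hle : ∀ s ∈ Ioc 0 t, u (t • v) ≤ u (s • v) := by
    intro s hs
    have h1 : AntitoneOn (fun s : ℝ => u (s • v)) (Icc s t) := by
      refine antitoneOn_of_deriv_nonpos (convex_Icc s t) ?_ ?_ ?_
      · intro x hx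
        exact (hder x ⟨hs.1.trans_le hx.1, hx.2⟩).continuousAt.continuousWithinAt
      · intro x hx
        rw [interior_Icc] at hx
        exact (hder x ⟨hs.1.trans hx.1, hx.2.le⟩).differentiableAt.differentiableWithinAt
      · intro x hx
        rw [interior_Icc] at hx
        rw [(hder x ⟨hs.1.trans hx.1, hx.2.le⟩).deriv]
        exact hneg x ⟨hs.1.trans hx.1, hx.2.le⟩
    exact h1 (left_mem_Icc.2 hs.2) (right_mem_Icc.2 hs.2) hs.2
  have hlim : Tendsto (fun s : ℝ => u (s • v)) (𝓝[>] 0) (𝓝 0) := by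
    refine h0.comp ?_
    rw [tendsto_nhdsWithin_iff]
    constructor
    · have h1 : ContinuousAt (fun s : ℝ => s • v) 0 := by fun_prop
      have h2 : Tendsto (fun s : ℝ => s • v) (𝓝 0) (𝓝 0) := by
        have := h1.tendsto
        rwa [zero_smul] at this
      exact h2.mono_left nhdsWithin_le_nhds
    · filter_upwards [self_mem_nhdsWithin] with s hs
      exact smul_ne_zero (ne_of_gt hs) hv0
  have h1 : u (t • v) ≤ 0 := by
    refine ge_of_tendsto hlim ?_
    filter_upwards [Ioc_mem_nhdsGT ht] with s hs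
    exact hle s hs
  exact absurd (hp _ (hmem t ⟨ht, le_rfl⟩)) (not_lt.2 h1)

/-- the closed punctured disc -/
def CD (r : ℝ) : Set PL := {a | ‖a‖ ≤ r ∧ a ≠ 0}

theorem smul_mem_CD {r : ℝ} {v : PL} (hv : ‖v‖ = 1) {t : ℝ} (ht : 0 < t) (htr : t ≤ r) :
    t • v ∈ CD r := by
  have hv0 : v ≠ 0 := by
    intro h
    rw [h, norm_zero] at hv
    norm_num at hv
  refine ⟨?_, smul_ne_zero ht.ne' hv0⟩
  rw [norm_smul, hv, mul_one, Real.norm_of_nonneg ht.le]
  exact htr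

/-- a segment of a ray -/
theorem ray_segment {r : ℝ} {v : PL} (hv : ‖v‖ = 1) {s t : ℝ} (hs : 0 < s) (hsr : s ≤ r)
    (ht : 0 < t) (htr : t ≤ r) : segment ℝ (s • v) (t • v) ⊆ CD r := by
  rintro x ⟨α, β, hα, hβ, hαβ, rfl⟩
  have h1 : α • s • v + β • t • v = (α * s + β * t) • v := by
    rw [add_smul, mul_smul, mul_smul]
  rw [h1]
  refine smul_mem_CD hv ?_ ?_
  · rcases hα.eq_or_lt with h | h
    · rw [← h] at hαβ ⊢
      have : β = 1 := by linarith
      rw [this]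
      linarith
    · have := mul_pos h hs
      have := mul_nonneg hβ ht.le
      linarith
  · nlinarith

/-- a segment between the coordinate axes -/
theorem cross_segment {r : ℝ} {i j : Fin 2} (hij : i ≠ j) {a b t : ℝ} (ha : |a| = 1) (hb : |b| = 1)
    (ht : 0 < t) (htr : t ≤ r) : segment ℝ (t • (a • (EuclideanSpace.single i 1 : PL)))
      (t • (b • (EuclideanSpace.single j 1 : PL))) ⊆ CD r := by
  have ni : ‖a • (EuclideanSpace.single i 1 : PL)‖ = 1 := by
    rw [norm_smul, Real.norm_eq_abs, ha]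
    simp
  have nj : ‖b • (EuclideanSpace.single j 1 : PL)‖ = 1 := by
    rw [norm_smul, Real.norm_eq_abs, hb]
    simp
  intro x hx
  constructor
  · have h1 := (convex_closedBall (0 : PL) r).segment_subset
      (mem_closedBall_zero_iff.2 (smul_mem_CD ni ht htr).1)
      (mem_closedBall_zero_iff.2 (smul_mem_CD nj ht htr).1) hx
    exact mem_closedBall_zero_iff.1 h1
  · rintro rfl
    obtain ⟨α, β, hα, hβ, hαβ, h0⟩ := hx
    have h1 := congrArg (fun v : PL => v i) h0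
    have h2 := congrArg (fun v : PL => v j) h0
    have a0 : a ≠ 0 := by
      intro h
      rw [h, abs_zero] at ha
      norm_num at ha
    have b0 : b ≠ 0 := by
      intro h
      rw [h, abs_zero] at hb
      norm_num at hb
    simp [hij, hij.symm, a0, b0, ht.ne'] at h1 h2
    rw [h1, h2] at hαβ
    norm_num at hαβ

/-- the derivative at `t e0` is small -/
theorem small_deriv {u : PL → ℝ} {M t : ℝ} (hMn : 0 ≤ M) (ht : 0 ≤ t)
    (hrad : ∀ v : PL, ‖v‖ = 1 → -(M * t) ≤ fderiv ℝ u (t • v) v)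
    (hcr : ∀ (i j : Fin 2), i ≠ j → ∀ a b : ℝ, |a| = 1 → |b| = 1 →
      ‖fderiv ℝ u (t • (b • (EuclideanSpace.single j 1 : PL)))
        - fderiv ℝ u (t • (a • (EuclideanSpace.single i 1 : PL)))‖ ≤ 2 * M * t) :
    ‖fderiv ℝ u (t • (EuclideanSpace.single 0 1 : PL))‖ ≤ 8 * M * t := by
  set e0 : PL := EuclideanSpace.single 0 1 with he0
  set e1 : PL := EuclideanSpace.single 1 1 with he1
  have habs1 : |(1 : ℝ)| = 1 := abs_one
  have habs2 : |(-1 : ℝ)| = 1 := by rw [abs_neg, abs_one]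
  have p0 := hrad e0 e0n
  have p1 := hrad ((-1 : ℝ) • e0) (by rw [norm_smul, he0, e0n]; simp)
  have p2 := hrad e1 e1n
  have p3 := hrad ((-1 : ℝ) • e1) (by rw [norm_smul, he1, e1n]; simp)
  have c1 := hcr 0 1 (by decide) 1 1 habs1 habs1
  have c2 := hcr 0 1 (by decide) (-1) 1 habs2 habs1
  have c3 := hcr 0 1 (by decide) 1 (-1) habs1 habs2
  rw [one_smul, one_smul] at c1
  rw [one_smul] at c2 c3
  rw [← he0, ← he1] at c1 c2 c3
  have ev : ∀ (A : PL →L[ℝ] ℝ) (c : ℝ) (w : PL), ‖w‖ = 1 → ‖A‖ ≤ c → |A w| ≤ c := by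
    intro A c w hw hA
    have h1 := A.le_opNorm w
    rw [hw, mul_one] at h1
    exact h1.trans hA
  have d1 := fun w hw => abs_le.1 (ev _ _ w hw c1)
  have d2 := fun w hw => abs_le.1 (ev _ _ w hw c2)
  have d3 := fun w hw => abs_le.1 (ev _ _ w hw c3)
  simp only [_root_.sub_apply] at d1 d2 d3
  rw [map_smul, smul_eq_mul] at p1 p3
  have q1 := d1 e0 e0n
  have q2 := d2 e0 e0n
  have q3 := d1 e1 e1n
  have q4 := d3 e1 e1n
  have hMt : 0 ≤ M * t := mul_nonneg hMn ht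
  have b0 : |fderiv ℝ u (t • e0) e0| ≤ 5 * (M * t) := by
    rw [abs_le]
    constructor <;> linarith [q1.1, q1.2, q2.1, q2.2]
  have b1 : |fderiv ℝ u (t • e0) e1| ≤ 3 * (M * t) := by
    rw [abs_le]
    constructor <;> linarith [q3.1, q3.2, q4.1, q4.2]
  refine ContinuousLinearMap.opNorm_le_bound _ (by linarith) fun w => ?_
  have hw : w = w 0 • e0 + w 1 • e1 := by
    ext i
    fin_cases i <;> simp [he0, he1]
  have hw0 : |w 0| ≤ ‖w‖ := PiLp.norm_apply_le w 0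
  have hw1 : |w 1| ≤ ‖w‖ := PiLp.norm_apply_le w 1
  have hw2 : fderiv ℝ u (t • e0) w
      = w 0 * fderiv ℝ u (t • e0) e0 + w 1 * fderiv ℝ u (t • e0) e1 := by
    conv_lhs => rw [hw]
    rw [map_add, map_smul, map_smul, smul_eq_mul, smul_eq_mul]
  rw [hw2, Real.norm_eq_abs]
  calc |w 0 * fderiv ℝ u (t • e0) e0 + w 1 * fderiv ℝ u (t • e0) e1|
      ≤ |w 0| * |fderiv ℝ u (t • e0) e0| + |w 1| * |fderiv ℝ u (t • e0) e1| := by
        rw [← abs_mul, ← abs_mul]
        exact abs_add_le _ _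
    _ ≤ ‖w‖ * (5 * (M * t)) + ‖w‖ * (3 * (M * t)) := by gcongr
    _ = 8 * M * t * ‖w‖ := by ring

/-- **K4** -/
theorem no_puncture {u : PL → ℝ} {r C : ℝ} (hr : 0 < r) (hC : 0 ≤ C) (h : Sys u C (PD r))
    (hp : ∀ a ∈ PD r, 0 < u a) (h0 : Tendsto u (𝓝[≠] 0) (𝓝 0)) : False := by
  set r1 : ℝ := r / 2 with hr1
  have hr1p : 0 < r1 := by positivity
  have hr1r : r1 < r := by rw [hr1]; linarith
  have hsub : CD r1 ⊆ PD r := fun a ha => ⟨ha.1.trans_lt hr1r, ha.2⟩
  have hS : Sys u C (CD r1) := h.mono hsub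
  set K : ℝ := 2 * C + 1 with hK
  have hKp : 0 < K := by rw [hK]; linarith
  -- the bound on the circle
  have hcomp : IsCompact (sphere (0 : PL) r1) := isCompact_sphere _ _
  have hsph : ∀ a ∈ sphere (0 : PL) r1, a ∈ CD r1 := by
    intro a ha
    rw [mem_sphere_zero_iff_norm] at ha
    refine ⟨ha.le, ?_⟩
    rintro rfl
    rw [norm_zero] at ha
    exact hr1p.ne ha
  have hcont : ContinuousOn (Jt u) (sphere (0 : PL) r1) := fun a ha =>
    (hS.hasFDerivAt (hsph a ha)).continuousAt.continuousWithinAt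
  obtain ⟨M0, hM0⟩ := hcomp.exists_bound_of_continuousOn hcont
  have hM0n : 0 ≤ M0 := by
    have h1 : r1 • (EuclideanSpace.single 0 1 : PL) ∈ sphere (0 : PL) r1 := by
      rw [mem_sphere_zero_iff_norm, norm_smul, e0n, mul_one, Real.norm_of_nonneg hr1p.le]
    exact (norm_nonneg _).trans (hM0 _ h1)
  -- the bound on the punctured disc
  set M1 : ℝ := Real.exp (K * r1) * M0 with hM1
  have hbd : ∀ a ∈ CD r1, ‖Jt u a‖ ≤ M1 := by
    intro a ha
    have hna : 0 < ‖a‖ := norm_pos_iff.2 ha.2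
    set v : PL := ‖a‖⁻¹ • a with hv
    have hv1 : ‖v‖ = 1 := by
      rw [hv, norm_smul, norm_inv, norm_norm, inv_mul_cancel₀ hna.ne']
    have hav : a = ‖a‖ • v := by
      rw [hv, smul_smul, mul_inv_cancel₀ hna.ne', one_smul]
    have h1 := (hS.mono (ray_segment hv1 hr1p le_rfl hna ha.1)).segment_le hC
    rw [← hav] at h1
    have h2 : ‖a - r1 • v‖ ≤ r1 := by
      have h3 : a - r1 • v = (‖a‖ - r1) • v := by
        rw [sub_smul, ← hav]
      rw [h3, norm_smul, hv1, mul_one, Real.norm_eq_abs, abs_le]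
      constructor <;> linarith [ha.1]
    have h4 : ‖Jt u (r1 • v)‖ ≤ M0 := by
      refine hM0 _ ?_
      rw [mem_sphere_zero_iff_norm, norm_smul, hv1, mul_one, Real.norm_of_nonneg hr1p.le]
    calc ‖Jt u a‖ ≤ Real.exp ((2 * C + 1) * ‖a - r1 • v‖) * ‖Jt u (r1 • v)‖ := h1
      _ ≤ Real.exp (K * r1) * M0 := by
          refine mul_le_mul (Real.exp_le_exp.2 ?_) h4 (norm_nonneg _) (Real.exp_pos _).le
          exact mul_le_mul_of_nonneg_left h2 hKp.le
  have hM1n : 0 ≤ M1 := by positivity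
  set M : ℝ := C * (M1 + M1) with hM
  have hMn : 0 ≤ M := by positivity
  have hlip : ∀ a b : PL, segment ℝ a b ⊆ CD r1 →
      ‖fderiv ℝ u b - fderiv ℝ u a‖ ≤ M * ‖b - a‖ := by
    intro a b hab
    refine Convex.norm_image_sub_le_of_norm_fderiv_le (𝕜 := ℝ) (f := fderiv ℝ u)
      (fun x hx => hS.d2 x (hab hx)) (fun x hx => ?_) (convex_segment a b)
      (left_mem_segment ℝ a b) (right_mem_segment ℝ a b)
    have h1 := hbd x (hab hx)
    have h2 : |u x| ≤ M1 := (norm_fst_le (Jt u x)).trans h1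
    have h3 : ‖fderiv ℝ u x‖ ≤ M1 := (norm_snd_le (Jt u x)).trans h1
    calc ‖fderiv ℝ (fderiv ℝ u) x‖ ≤ C * (|u x| + ‖fderiv ℝ u x‖) := hS.bd x (hab hx)
      _ ≤ M := by rw [hM]; gcongr
  -- the radial derivatives
  have hrad : ∀ v : PL, ‖v‖ = 1 → ∀ t ∈ Ioc 0 r1, -(M * t) ≤ fderiv ℝ u (t • v) v := by
    intro v hv t ht
    refine radial_ge hMn (fun a ha => h.d1 a ha) hp h0 hv ht.1 (ht.2.trans_lt hr1r) ?_
    intro s hs
    have h1 := hlip (s • v) (t • v) (ray_segment hv hs.1 (hs.2.trans ht.2) ht.1 ht.2)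
    have h2 : ‖t • v - s • v‖ = t - s := by
      rw [← sub_smul, norm_smul, hv, mul_one, Real.norm_of_nonneg (by linarith [hs.2])]
    rw [h2] at h1
    exact h1
  set e0 : PL := EuclideanSpace.single 0 1 with he0
  set e1 : PL := EuclideanSpace.single 1 1 with he1
  have habs1 : |(1 : ℝ)| = 1 := abs_one
  have habs2 : |(-1 : ℝ)| = 1 := by rw [abs_neg, abs_one]
  have hcr : ∀ (i j : Fin 2), i ≠ j → ∀ a b : ℝ, |a| = 1 → |b| = 1 → ∀ t ∈ Ioc 0 r1,
      ‖fderiv ℝ u (t • (b • (EuclideanSpace.single j 1 : PL)))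
        - fderiv ℝ u (t • (a • (EuclideanSpace.single i 1 : PL)))‖ ≤ 2 * M * t := by
    intro i j hij a b ha hb t ht
    have h1 := hlip _ _ (cross_segment (r := r1) hij ha hb ht.1 ht.2)
    have h2 : ‖t • (b • (EuclideanSpace.single j 1 : PL))
        - t • (a • (EuclideanSpace.single i 1 : PL))‖ ≤ 2 * t := by
      refine (norm_sub_le _ _).trans ?_
      rw [norm_smul, norm_smul, norm_smul, norm_smul, Real.norm_of_nonneg ht.1.le,
        Real.norm_eq_abs, Real.norm_eq_abs, ha, hb]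
      simp
      linarith
    calc _ ≤ M * ‖t • (b • (EuclideanSpace.single j 1 : PL))
          - t • (a • (EuclideanSpace.single i 1 : PL))‖ := h1
      _ ≤ M * (2 * t) := by gcongr
      _ = 2 * M * t := by ring
  -- the derivative at `t e0` is small
  have hsmall : ∀ t ∈ Ioc 0 r1, ‖fderiv ℝ u (t • e0)‖ ≤ 8 * M * t := fun t ht =>
    small_deriv hMn ht.1.le (fun v hv => hrad v hv t ht)
      (fun i j hij a b ha hb => hcr i j hij a b ha hb t ht)
  -- the one-jet tends to zero along the ray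
  have hfin : ∀ t ∈ Ioc 0 r1, ‖Jt u (r1 • e0)‖ ≤ Real.exp (K * r1) * (|u (t • e0)| + 8 * M * t) := by
    intro t ht
    have h1 := (hS.mono (ray_segment (v := e0) e0n ht.1 ht.2 hr1p le_rfl)).segment_le hC
    have h2 : ‖r1 • e0 - t • e0‖ ≤ r1 := by
      rw [← sub_smul, norm_smul, he0, e0n, mul_one, Real.norm_eq_abs, abs_le]
      constructor <;> linarith [ht.1, ht.2]
    have h3 : ‖Jt u (t • e0)‖ ≤ |u (t • e0)| + 8 * M * t := by
      rw [Jt, Prod.norm_def]
      refine max_le ?_ ?_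
      · rw [Real.norm_eq_abs]
        nlinarith [hsmall t ht, norm_nonneg (fderiv ℝ u (t • e0))]
      · have := hsmall t ht
        have := abs_nonneg (u (t • e0))
        linarith
    calc ‖Jt u (r1 • e0)‖ ≤ Real.exp ((2 * C + 1) * ‖r1 • e0 - t • e0‖) * ‖Jt u (t • e0)‖ := h1
      _ ≤ Real.exp (K * r1) * (|u (t • e0)| + 8 * M * t) := by
          refine mul_le_mul (Real.exp_le_exp.2 ?_) h3 (norm_nonneg _) (Real.exp_pos _).le
          exact mul_le_mul_of_nonneg_left h2 hKp.le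
  have hlim : Tendsto (fun t : ℝ => Real.exp (K * r1) * (|u (t • e0)| + 8 * M * t)) (𝓝[>] 0)
      (𝓝 (Real.exp (K * r1) * (|0| + 8 * M * 0))) := by
    have hv0 : e0 ≠ 0 := by
      intro h
      have := e0n
      rw [← he0, h, norm_zero] at this
      norm_num at this
    have h1 : Tendsto (fun s : ℝ => u (s • e0)) (𝓝[>] 0) (𝓝 0) := by
      refine h0.comp ?_
      rw [tendsto_nhdsWithin_iff]
      constructor
      · have h1 : ContinuousAt (fun s : ℝ => s • e0) 0 := by fun_prop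
        have h2 : Tendsto (fun s : ℝ => s • e0) (𝓝 0) (𝓝 0) := by
          have := h1.tendsto
          rwa [zero_smul] at this
        exact h2.mono_left nhdsWithin_le_nhds
      · filter_upwards [self_mem_nhdsWithin] with s hs
        exact smul_ne_zero (ne_of_gt hs) hv0
    have h2 : Tendsto (fun t : ℝ => 8 * M * t) (𝓝[>] 0) (𝓝 (8 * M * 0)) := by
      have h3 : ContinuousAt (fun t : ℝ => 8 * M * t) 0 := by fun_prop
      exact h3.tendsto.mono_left nhdsWithin_le_nhds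
    exact (h1.abs.add h2).const_mul _
  have h1 : ‖Jt u (r1 • e0)‖ ≤ Real.exp (K * r1) * (|0| + 8 * M * 0) := by
    refine ge_of_tendsto hlim ?_
    filter_upwards [Ioc_mem_nhdsGT hr1p] with t ht
    exact hfin t ht
  have h2 : |u (r1 • e0)| ≤ ‖Jt u (r1 • e0)‖ := norm_fst_le (Jt u (r1 • e0))
  have h3 := hp _ (hsub (smul_mem_CD (v := e0) e0n hr1p le_rfl))
  rw [abs_zero, mul_zero, add_zero, mul_zero] at h1
  have h4 := abs_pos.2 h3.ne'
  linarith

end Vale.Agent.P207.N3.H576
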