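import Vale.Agent.P207.N3.H576.Coef
import Vale.Agent.P207.N3.H576.Punct

/-!
# P207, line N3, P12 (VII): the tensor of `D` is not pure trace

`kill`: a function `D` whose tensor is pure trace, and which tends to `- ∞` at one point of the
diagonal, does not exist.
-/

noncomputable section

open Set Filter Topology Metric
open scoped ContDiff

namespace Vale.Agent.P207.N3.H576

variable {Γ X B : Type} [Group Γ] [MetricSpace X] [ProperSpace X] [MulAction Γ X]
  [IsIsometricSMul Γ X] [TopologicalSpace B] [CompactSpace B] [T2Space B] [MulAction Γ B]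
  [ContinuousConstSMul Γ B]

/-- the determinant of two covectors -/
def det2 (v v' : D2) : ℝ := v (bv 0) * v' (bv 1) - v (bv 1) * v' (bv 0)

theorem norm_bv (i : Fin 2) : ‖bv i‖ = 1 := by
  rw [bv]
  simp

theorem abs_bv_le (v : D2) (i : Fin 2) : |v (bv i)| ≤ ‖v‖ := by
  have h := v.le_opNorm (bv i)
  rwa [norm_bv, mul_one, Real.norm_eq_abs] at h

theorem abs_det2_le (v v' : D2) : |det2 v v'| ≤ 2 * ‖v‖ * ‖v'‖ := by
  have h1 := abs_bv_le v 0
  have h2 := abs_bv_le v 1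
  have h3 := abs_bv_le v' 0
  have h4 := abs_bv_le v' 1
  calc |det2 v v'| ≤ |v (bv 0) * v' (bv 1)| + |v (bv 1) * v' (bv 0)| := abs_sub _ _
    _ = |v (bv 0)| * |v' (bv 1)| + |v (bv 1)| * |v' (bv 0)| := by rw [abs_mul, abs_mul]
    _ ≤ ‖v‖ * ‖v'‖ + ‖v‖ * ‖v'‖ := by gcongr
    _ = 2 * ‖v‖ * ‖v'‖ := by ring

theorem cramer (T : D2 →L[ℝ] ℝ) (v w1 w2 : D2) :
    det2 w1 w2 * T v = det2 v w2 * T w1 + det2 w1 v * T w2 := by
  have h : ∀ y : D2, T y = y (bv 0) * T (dv 0) + y (bv 1) * T (dv 1) := by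
    intro y
    conv_lhs => rw [cov_eq y]
    rw [map_add, map_smul, map_smul, smul_eq_mul, smul_eq_mul]
  rw [h v, h w1, h w2, det2, det2, det2]
  ring

theorem mdet_ne_zero {A : E2 →L[ℝ] D2} (h : A.IsInvertible) : mdet A ≠ 0 := by
  obtain ⟨e, rfl⟩ := h
  intro h0
  have hker : ∀ c d : ℝ, (∀ j, c * (e : E2 →L[ℝ] D2) (bv 0) (bv j)
      + d * (e : E2 →L[ℝ] D2) (bv 1) (bv j) = 0) → c = 0 ∧ d = 0 := by
    intro c d hj
    have h1 : e (c • bv 0 + d • bv 1) = 0 := by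
      ext v
      rw [cov_apply, map_add, map_smul, map_smul]
      have h2 := hj 0
      have h3 := hj 1
      simp only [ContinuousLinearEquiv.coe_coe] at h2 h3
      simp only [_root_.add_apply, _root_.smul_apply, smul_eq_mul, _root_.zero_apply]
      rw [h2, h3]
      ring
    rw [ContinuousLinearEquiv.map_eq_zero_iff] at h1
    have h2 := congrArg (fun v : E2 => v 0) h1
    have h3 := congrArg (fun v : E2 => v 1) h1
    simp [bv_apply] at h2 h3
    exact ⟨h2, h3⟩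
  rw [mdet] at h0
  have k1 := hker ((e : E2 →L[ℝ] D2) (bv 1) (bv 0)) (-(e : E2 →L[ℝ] D2) (bv 0) (bv 0)) (by
    intro j
    fin_cases j
    · simp only [Fin.zero_eta]
      ring
    · simp only [Fin.mk_one]
      linarith)
  have k2 := hker ((e : E2 →L[ℝ] D2) (bv 1) (bv 1)) (-(e : E2 →L[ℝ] D2) (bv 0) (bv 1)) (by
    intro j
    fin_cases j
    · simp only [Fin.zero_eta]
      linarith
    · simp only [Fin.mk_one]
      ring)
  have k3 := hker 1 0 (by
    intro j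
    fin_cases j
    · simp only [Fin.zero_eta, one_mul, zero_mul, add_zero]
      exact neg_eq_zero.1 k1.2
    · simp only [Fin.mk_one, one_mul, zero_mul, add_zero]
      exact neg_eq_zero.1 k2.2)
  exact one_ne_zero k3.1

/-- near a point with invertible derivative two increments are independent -/
theorem exists_incr {q : E2 → D2} (hq : DifferentiableAt ℝ q 0) (hi : Inv q 0) :
    ∃ s : ℝ, |s| < 1 ∧ det2 (q (s • bv 0) - q 0) (q (s • bv 1) - q 0) ≠ 0 := by
  have h1 : ∀ i, Tendsto (fun s : ℝ => s⁻¹ • (q (s • bv i) - q 0)) (𝓝[≠] 0)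
      (𝓝 (fderiv ℝ q 0 (bv i))) := by
    intro i
    have h2 : HasDerivAt (fun s : ℝ => s • bv i) (bv i) 0 := by
      have h3 := (hasDerivAt_id (0 : ℝ)).smul_const (bv i)
      simpa using h3
    have h4 : HasFDerivAt q (fderiv ℝ q 0) ((0 : ℝ) • bv i) := by
      rw [zero_smul]
      exact hq.hasFDerivAt
    have h5 : HasDerivAt (fun s : ℝ => q (s • bv i)) (fderiv ℝ q 0 (bv i)) 0 :=
      h4.comp_hasDerivAt 0 h2
    have h6 := h5.tendsto_slope_zero
    simpa using h6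
  have hc : Continuous fun p : D2 × D2 => det2 p.1 p.2 := by
    have k : ∀ i, Continuous fun v : D2 => v (bv i) := fun i =>
      (ContinuousLinearMap.apply ℝ ℝ (bv i) : D2 →L[ℝ] ℝ).continuous
    exact (((k 0).comp continuous_fst).mul ((k 1).comp continuous_snd)).sub
      (((k 1).comp continuous_fst).mul ((k 0).comp continuous_snd))
  have h2 : Tendsto (fun s : ℝ => det2 (s⁻¹ • (q (s • bv 0) - q 0)) (s⁻¹ • (q (s • bv 1) - q 0)))
      (𝓝[≠] 0) (𝓝 (det2 (fderiv ℝ q 0 (bv 0)) (fderiv ℝ q 0 (bv 1)))) :=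
    (hc.tendsto _).comp ((h1 0).prodMk_nhds (h1 1))
  have h3 : det2 (fderiv ℝ q 0 (bv 0)) (fderiv ℝ q 0 (bv 1)) ≠ 0 := mdet_ne_zero hi
  have h4 : ∀ᶠ s : ℝ in 𝓝[≠] 0, |s| < 1 := by
    have : ∀ᶠ s : ℝ in 𝓝 0, |s| < 1 := by
      filter_upwards [Metric.ball_mem_nhds (0 : ℝ) one_pos] with s hs
      rwa [mem_ball_zero_iff, Real.norm_eq_abs] at hs
    exact this.filter_mono nhdsWithin_le_nhds
  obtain ⟨s, hs1, hs2, hs3⟩ := ((h2.eventually_ne h3).and (h4.and self_mem_nhdsWithin)).exists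
  refine ⟨s, hs2, fun h => hs1 ?_⟩
  have h5 : ∀ v v' : D2, det2 (s⁻¹ • v) (s⁻¹ • v') = s⁻¹ ^ 2 * det2 v v' := by
    intro v v'
    simp only [det2, _root_.smul_apply, smul_eq_mul]
    ring
  rw [h5, h, mul_zero]

theorem ev_bdd {F : Type} [NormedAddCommGroup F] {g : E2 → F} (hg : ContinuousAt g 0) :
    ∃ b : ℝ, 0 ≤ b ∧ ∀ᶠ a in 𝓝 (0 : E2), ‖g a‖ ≤ b := by
  have h1 := hg.norm.eventually (eventually_lt_nhds (lt_add_one ‖g 0‖))
  refine ⟨‖g 0‖ + 1, by positivity, ?_⟩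
  filter_upwards [h1] with a ha
  exact ha.le

/-- a bilinear form is bounded by its components -/
theorem norm_Q2_le (Q : Q2) {c : ℝ} (h : ∀ i j, |Q (bv i) (bv j)| ≤ c) : ‖Q‖ ≤ 4 * c := by
  have hc : 0 ≤ c := (abs_nonneg _).trans (h 0 0)
  have hb : ∀ (w : E2) i, |w i| ≤ ‖w‖ := fun w i => PiLp.norm_apply_le w i
  refine ContinuousLinearMap.opNorm_le_bound _ (by linarith) fun w => ?_
  refine ContinuousLinearMap.opNorm_le_bound _ (by positivity) fun w' => ?_
  have h1 : Q w w' = w 0 * w' 0 * Q (bv 0) (bv 0) + w 0 * w' 1 * Q (bv 0) (bv 1)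
      + w 1 * w' 0 * Q (bv 1) (bv 0) + w 1 * w' 1 * Q (bv 1) (bv 1) := by
    conv_lhs => rw [vec_eq w, vec_eq w']
    simp only [map_add, map_smul, _root_.add_apply, _root_.smul_apply, smul_eq_mul]
    ring
  have h2 : ∀ i j, |w i * w' j * Q (bv i) (bv j)| ≤ ‖w‖ * ‖w'‖ * c := by
    intro i j
    rw [abs_mul, abs_mul]
    have := hb w i
    have := hb w' j
    have := h i j
    gcongr
  rw [h1, Real.norm_eq_abs]
  calc _ ≤ |w 0 * w' 0 * Q (bv 0) (bv 0) + w 0 * w' 1 * Q (bv 0) (bv 1)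
        + w 1 * w' 0 * Q (bv 1) (bv 0)| + |w 1 * w' 1 * Q (bv 1) (bv 1)| := abs_add_le _ _
    _ ≤ (|w 0 * w' 0 * Q (bv 0) (bv 0) + w 0 * w' 1 * Q (bv 0) (bv 1)|
        + |w 1 * w' 0 * Q (bv 1) (bv 0)|) + |w 1 * w' 1 * Q (bv 1) (bv 1)| := by
          gcongr
          exact abs_add_le _ _
    _ ≤ ((|w 0 * w' 0 * Q (bv 0) (bv 0)| + |w 0 * w' 1 * Q (bv 0) (bv 1)|)
        + |w 1 * w' 0 * Q (bv 1) (bv 0)|) + |w 1 * w' 1 * Q (bv 1) (bv 1)| := by
          gcongr
          exact abs_add_le _ _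
    _ ≤ ((‖w‖ * ‖w'‖ * c + ‖w‖ * ‖w'‖ * c) + ‖w‖ * ‖w'‖ * c) + ‖w‖ * ‖w'‖ * c := by
          gcongr
          · exact h2 0 0
          · exact h2 0 1
          · exact h2 1 0
          · exact h2 1 1
    _ = 4 * c * ‖w‖ * ‖w'‖ := by ring

variable {L : Leaf Γ X B} {D : B → B → ℝ} {y : X} {lam : ℝ}

/-- **(K2)** the coefficients are bounded near the point -/
theorem PT.coef_bdd (h : PT L D y lam) (w w' : E2) : ∃ Cc : ℝ, 0 ≤ Cc ∧ ∀ᶠ a in 𝓝 (0 : E2),
    ∀ (T : D2 →L[ℝ] ℝ) (c : ℝ), (∀ η, η ≠ L.e y a →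
      mB L D y a η w w' = lam / 3 * (qB L D y a η w * qB L D y a η w') + T (qB L D y a η) + c) →
    (∀ v, |T v| ≤ Cc * ‖v‖) ∧ |c| ≤ Cc := by
  set x : X := L.flip y with hx
  have hemx : L.em x = L.e y 0 := by rw [hx, L.e_zero, L.ep_flip]
  have h03 : (0 : E2) ∈ ball (0 : E2) 3 := mem_ball_self (by norm_num)
  have hmem : ∀ u ∈ ball (0 : E2) 3, ((0, u) : E2 × E2) ∈ H442.OD L y x := by
    intro u hu
    refine ⟨h03, hu, ?_⟩
    have := L.e_ne x u (ball_subset_closedBall hu)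
    rw [hemx] at this
    exact this.symm
  set q : E2 → D2 := fun u => dp (fD L D y x) (0, u) with hq
  have sq : H576.Sm q 0 := ((h.Sm (hmem 0 h03)).dp.right : _)
  obtain ⟨s, hs, hdet⟩ := exists_incr sq.diff (h.nd x _ (hmem 0 h03))
  -- the three points
  set u1 : E2 := s • bv 0 with hu1
  set u2 : E2 := s • bv 1 with hu2
  have m1 : u1 ∈ ball (0 : E2) 3 := by
    rw [mem_ball_zero_iff, hu1, norm_smul, norm_bv, mul_one, Real.norm_eq_abs]
    linarith
  have m2 : u2 ∈ ball (0 : E2) 3 := by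
    rw [mem_ball_zero_iff, hu2, norm_smul, norm_bv, mul_one, Real.norm_eq_abs]
    linarith
  -- continuity in `a`
  have cq : ∀ u ∈ ball (0 : E2) 3, ContinuousAt (fun a => qB L D y a (L.e x u)) 0 := by
    intro u hu
    have h1 : H576.Sm (fun a => dp (fD L D y x) (a, u)) 0 := ((h.Sm (hmem u hu)).dp.left : _)
    exact h1.at.continuousAt
  have cm : ∀ u ∈ ball (0 : E2) 3, ContinuousAt (fun a => mB L D y a (L.e x u) w w') 0 := by
    intro u hu
    have h1 : H576.Sm (fun a => dp (dp (fD L D y x)) (a, u)) 0 :=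
      ((h.Sm (hmem u hu)).dp.dp.left : _)
    exact (h1.eval w w').at.continuousAt
  have cev : ∀ (v : E2) (u : E2), u ∈ ball (0 : E2) 3 →
      ContinuousAt (fun a => qB L D y a (L.e x u) v) 0 := by
    intro v u hu
    exact ((ContinuousLinearMap.apply ℝ ℝ v : D2 →L[ℝ] ℝ).continuous.continuousAt).comp (cq u hu)
  have cN : ∀ u ∈ ball (0 : E2) 3, ContinuousAt (fun a => mB L D y a (L.e x u) w w'
      - lam / 3 * (qB L D y a (L.e x u) w * qB L D y a (L.e x u) w')) 0 := by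
    intro u hu
    exact (cm u hu).sub (((cev w u hu).mul (cev w' u hu)).const_mul _)
  have ne : ∀ u ∈ ball (0 : E2) 3, ∀ᶠ a in 𝓝 (0 : E2), L.e x u ≠ L.e y a := by
    intro u hu
    have h1 : ContinuousAt (fun a : E2 => ((a, u) : E2 × E2)) 0 := by fun_prop
    filter_upwards [h1.eventually ((isOpen_OD L y x).mem_nhds (hmem u hu))] with a ha
    exact ha.2.2.symm
  set d : ℝ := |det2 (q u1 - q 0) (q u2 - q 0)| with hd
  have hdp : 0 < d := abs_pos.2 hdet
  have cdet : ContinuousAt (fun a => |det2 (qB L D y a (L.e x u1) - qB L D y a (L.e x 0))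
      (qB L D y a (L.e x u2) - qB L D y a (L.e x 0))|) 0 := by
    have e1 := fun (v : E2) => (cev v u1 m1).sub (cev v 0 h03)
    have e2 := fun (v : E2) => (cev v u2 m2).sub (cev v 0 h03)
    exact (((e1 (bv 0)).mul (e2 (bv 1))).sub ((e1 (bv 1)).mul (e2 (bv 0)))).abs
  have edet : ∀ᶠ a in 𝓝 (0 : E2), d / 2 < |det2 (qB L D y a (L.e x u1) - qB L D y a (L.e x 0))
      (qB L D y a (L.e x u2) - qB L D y a (L.e x 0))| :=
    cdet.eventually (lt_mem_nhds (by
      show d / 2 < d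
      linarith))
  obtain ⟨b1, hb1, g1⟩ := ev_bdd ((cq u1 m1).sub (cq 0 h03))
  obtain ⟨b2, hb2, g2⟩ := ev_bdd ((cq u2 m2).sub (cq 0 h03))
  obtain ⟨b3, hb3, g3⟩ := ev_bdd (cq 0 h03)
  obtain ⟨b4, hb4, g4⟩ := ev_bdd (cN 0 h03)
  obtain ⟨b5, hb5, g5⟩ := ev_bdd (cN u1 m1)
  obtain ⟨b6, hb6, g6⟩ := ev_bdd (cN u2 m2)
  set K : ℝ := (2 * b2 * (b5 + b4) + 2 * b1 * (b6 + b4)) / (d / 2) with hK
  have hKn : 0 ≤ K := by positivity
  refine ⟨K + b4 + K * b3, by positivity, ?_⟩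
  filter_upwards [edet, g1, g2, g3, g4, g5, g6, ne 0 h03, ne u1 m1, ne u2 m2] with a ad a1 a2 a3 a4
    a5 a6 n0 n1 n2
  intro T c hT
  set w1 : D2 := qB L D y a (L.e x u1) - qB L D y a (L.e x 0) with hw1
  set w2 : D2 := qB L D y a (L.e x u2) - qB L D y a (L.e x 0) with hw2
  have a1' : ‖w1‖ ≤ b1 := a1
  have a2' : ‖w2‖ ≤ b2 := a2
  rw [Real.norm_eq_abs] at a4 a5 a6
  have t0 := hT _ n0
  have t1 := hT _ n1
  have t2 := hT _ n2
  have e1 : T w1 = (mB L D y a (L.e x u1) w w'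
      - lam / 3 * (qB L D y a (L.e x u1) w * qB L D y a (L.e x u1) w'))
      - (mB L D y a (L.e x 0) w w'
      - lam / 3 * (qB L D y a (L.e x 0) w * qB L D y a (L.e x 0) w')) := by
    rw [hw1, map_sub]
    linarith
  have e2 : T w2 = (mB L D y a (L.e x u2) w w'
      - lam / 3 * (qB L D y a (L.e x u2) w * qB L D y a (L.e x u2) w'))
      - (mB L D y a (L.e x 0) w w'
      - lam / 3 * (qB L D y a (L.e x 0) w * qB L D y a (L.e x 0) w')) := by
    rw [hw2, map_sub]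
    linarith
  have f1 : |T w1| ≤ b5 + b4 := by
    rw [e1]
    exact (abs_sub _ _).trans (add_le_add a5 a4)
  have f2 : |T w2| ≤ b6 + b4 := by
    rw [e2]
    exact (abs_sub _ _).trans (add_le_add a6 a4)
  have hTv : ∀ v, |T v| ≤ K * ‖v‖ := by
    intro v
    have hc := cramer T v w1 w2
    have h1 : |det2 w1 w2| * |T v| ≤ (2 * b2 * (b5 + b4) + 2 * b1 * (b6 + b4)) * ‖v‖ := by
      rw [← abs_mul, hc]
      calc |det2 v w2 * T w1 + det2 w1 v * T w2|
          ≤ |det2 v w2 * T w1| + |det2 w1 v * T w2| := abs_add_le _ _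
        _ = |det2 v w2| * |T w1| + |det2 w1 v| * |T w2| := by rw [abs_mul, abs_mul]
        _ ≤ (2 * ‖v‖ * ‖w2‖) * (b5 + b4) + (2 * ‖w1‖ * ‖v‖) * (b6 + b4) := by
            gcongr
            · exact abs_det2_le _ _
            · exact abs_det2_le _ _
        _ ≤ (2 * ‖v‖ * b2) * (b5 + b4) + (2 * b1 * ‖v‖) * (b6 + b4) := by gcongr
        _ = _ := by ring
    have h2 : d / 2 * |T v| ≤ |det2 w1 w2| * |T v| :=
      mul_le_mul_of_nonneg_right ad.le (abs_nonneg _)
    have h3 : |T v| ≤ (2 * b2 * (b5 + b4) + 2 * b1 * (b6 + b4)) * ‖v‖ / (d / 2) := by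
      rw [le_div_iff₀ (by linarith)]
      linarith
    calc |T v| ≤ (2 * b2 * (b5 + b4) + 2 * b1 * (b6 + b4)) * ‖v‖ / (d / 2) := h3
      _ = K * ‖v‖ := by rw [hK]; ring
  have hq0 : 0 ≤ K * b3 := mul_nonneg hKn hb3
  refine ⟨fun v => (hTv v).trans ?_, ?_⟩
  · refine mul_le_mul_of_nonneg_right ?_ (norm_nonneg _)
    linarith
  · have h1 : c = (mB L D y a (L.e x 0) w w'
      - lam / 3 * (qB L D y a (L.e x 0) w * qB L D y a (L.e x 0) w')) - T (qB L D y a (L.e x 0)) := by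
      linarith
    have h2 : |T (qB L D y a (L.e x 0))| ≤ K * b3 :=
      (hTv _).trans (mul_le_mul_of_nonneg_left a3 hKn)
    rw [h1]
    have h3 := abs_sub (mB L D y a (L.e x 0) w w'
      - lam / 3 * (qB L D y a (L.e x 0) w * qB L D y a (L.e x 0) w')) (T (qB L D y a (L.e x 0)))
    linarith

/-- **(VII)** -/
theorem kill (h : PT L D y lam) (hlam : lam < 0)
    (hD : Tendsto (fun a => D (L.e y a) (L.e y 0)) (𝓝[≠] 0) atBot) : False := by
  have h03 : (0 : E2) ∈ ball (0 : E2) 3 := mem_ball_self (by norm_num)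
  choose Cc hCc hev using fun (i j : Fin 2) => h.coef_bdd (bv i) (bv j)
  obtain ⟨δ, hδ, hball⟩ : ∃ δ > 0, ∀ a ∈ ball (0 : E2) δ, ∀ i j, ∀ (T : D2 →L[ℝ] ℝ) (c : ℝ),
      (∀ η, η ≠ L.e y a → mB L D y a η (bv i) (bv j)
        = lam / 3 * (qB L D y a η (bv i) * qB L D y a η (bv j)) + T (qB L D y a η) + c) →
      (∀ v, |T v| ≤ Cc i j * ‖v‖) ∧ |c| ≤ Cc i j := by
    have h1 : ∀ᶠ a in 𝓝 (0 : E2), ∀ i j, ∀ (T : D2 →L[ℝ] ℝ) (c : ℝ),
      (∀ η, η ≠ L.e y a → mB L D y a η (bv i) (bv j)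
        = lam / 3 * (qB L D y a η (bv i) * qB L D y a η (bv j)) + T (qB L D y a η) + c) →
      (∀ v, |T v| ≤ Cc i j * ‖v‖) ∧ |c| ≤ Cc i j := by
      rw [Filter.eventually_all]
      intro i
      rw [Filter.eventually_all]
      intro j
      exact hev i j
    obtain ⟨δ, hδ, hb⟩ := Metric.mem_nhds_iff.1 h1
    exact ⟨δ, hδ, fun a ha => hb ha⟩
  set r : ℝ := min δ 3 with hr
  have hrp : 0 < r := lt_min hδ (by norm_num)
  set Cs : ℝ := Cc 0 0 + Cc 0 1 + Cc 1 0 + Cc 1 1 with hCs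
  have hCsn : 0 ≤ Cs := by
    have := hCc 0 0
    have := hCc 0 1
    have := hCc 1 0
    have := hCc 1 1
    linarith
  have hCle : ∀ i j, Cc i j ≤ Cs := by
    have c00 := hCc 0 0
    have c01 := hCc 0 1
    have c10 := hCc 1 0
    have c11 := hCc 1 1
    intro i j
    fin_cases i <;> fin_cases j <;> simp only [Fin.zero_eta, Fin.mk_one] <;> linarith
  set k : ℝ := - (lam / 3) with hk
  have hkp : 0 < k := by rw [hk]; linarith
  set u : E2 → ℝ := fun a => Real.exp (k * D (L.e y a) (L.e y 0)) with hu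
  -- smoothness on the punctured disc
  have hmem : ∀ a ∈ PD r, ((a, 0) : E2 × E2) ∈ H442.OD L y y := by
    intro a ha
    have h1 : a ∈ ball (0 : E2) 3 := mem_ball_zero_iff.2 (ha.1.trans_le (min_le_right _ _))
    refine ⟨h1, h03, fun he => ha.2 ?_⟩
    exact L.e_inj y (ball_subset_closedBall h1) (ball_subset_closedBall h03) he
  have hg : ∀ a ∈ PD r, H576.Sm (fun a => D (L.e y a) (L.e y 0)) a := by
    intro a ha
    have h1 : H576.Sm (fun a' => fD L D y y (a', 0)) a := ((h.Sm (hmem a ha)).left : _)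
    exact h1
  have hopen : IsOpen (PD r) := by
    have h1 : PD r = ball (0 : E2) r ∩ {0}ᶜ := by
      ext a
      simp [PD]
    rw [h1]
    exact isOpen_ball.inter isOpen_compl_singleton
  have hd1 : ∀ a ∈ PD r, HasFDerivAt u (u a • (k • qB L D y a (L.e y 0))) a := by
    intro a ha
    have h1 : HasFDerivAt (fun a => D (L.e y a) (L.e y 0)) (qB L D y a (L.e y 0)) a :=
      (hg a ha).diff.hasFDerivAt
    exact (h1.const_mul k).exp
  have hd2 : ∀ a ∈ PD r, HasFDerivAt (fderiv ℝ u) (u a • (k • mB L D y a (L.e y 0))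
      + (u a • (k • qB L D y a (L.e y 0))).smulRight (k • qB L D y a (L.e y 0))) a := by
    intro a ha
    have h1 : fderiv ℝ u =ᶠ[𝓝 a] fun a => u a • (k • qB L D y a (L.e y 0)) := by
      filter_upwards [hopen.mem_nhds ha] with b hb
      exact (hd1 b hb).fderiv
    have h2 : HasFDerivAt (fun a => qB L D y a (L.e y 0)) (mB L D y a (L.e y 0)) a := by
      have h3 : H576.Sm (fun a' => dp (fD L D y y) (a', 0)) a := ((h.Sm (hmem a ha)).dp.left : _)
      exact h3.diff.hasFDerivAt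
    have h4 := (hd1 a ha).smul (h2.const_smul k)
    exact h4.congr_of_eventuallyEq h1
  have hsys : Sys u (4 * (Cs + k * Cs)) (PD r) := by
    refine ⟨fun a ha => (hd1 a ha).differentiableAt, fun a ha => (hd2 a ha).differentiableAt,
      fun a ha => ?_⟩
    have hup : 0 < u a := Real.exp_pos _
    have haδ : a ∈ ball (0 : E2) δ := mem_ball_zero_iff.2 (ha.1.trans_le (min_le_left _ _))
    have ha3 : a ∈ ball (0 : E2) 3 := mem_ball_zero_iff.2 (ha.1.trans_le (min_le_right _ _))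
    have h1 : ‖fderiv ℝ (fderiv ℝ u) a‖ ≤ 4 * ((Cs + k * Cs) * (|u a| + ‖fderiv ℝ u a‖)) := by
      refine norm_Q2_le _ fun i j => ?_
      obtain ⟨T, c, hT⟩ := h.leaf ha3 (bv i) (bv j)
      obtain ⟨hT1, hc1⟩ := hball a haδ i j T c hT
      have h2 := hT (L.e y 0) (hmem a ha).2.2.symm
      rw [(hd2 a ha).fderiv, (hd1 a ha).fderiv]
      set q := qB L D y a (L.e y 0)
      set m := mB L D y a (L.e y 0)
      have h3 : (u a • (k • m) + (u a • (k • q)).smulRight (k • q)) (bv i) (bv j)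
          = T (u a • (k • q)) + k * c * u a := by
        rw [map_smul, map_smul]
        simp only [_root_.add_apply, _root_.smul_apply, ContinuousLinearMap.smulRight_apply,
          smul_eq_mul]
        rw [h2]
        have h5 : lam / 3 = - k := by rw [hk]; ring
        rw [h5]
        ring
      rw [h3]
      have h6 : |T (u a • (k • q))| ≤ Cs * ‖u a • (k • q)‖ :=
        (hT1 _).trans (mul_le_mul_of_nonneg_right (hCle i j) (norm_nonneg _))
      have h7 : |k * c * u a| ≤ k * Cs * |u a| := by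
        rw [abs_mul, abs_mul, abs_of_pos hkp]
        have := hc1.trans (hCle i j)
        gcongr
      have h8 := abs_add_le (T (u a • (k • q))) (k * c * u a)
      have h9 : 0 ≤ k * Cs * ‖u a • (k • q)‖ := by positivity
      have h10 : 0 ≤ Cs * |u a| := by positivity
      nlinarith
    linarith [h1]
  refine no_puncture hrp (by positivity) hsys (fun a _ => Real.exp_pos _) ?_
  have h1 : Tendsto (fun a => k * D (L.e y a) (L.e y 0)) (𝓝[≠] 0) atBot :=
    Tendsto.const_mul_atBot hkp hD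
  exact Real.tendsto_exp_atBot.comp h1

end Vale.Agent.P207.N3.H576
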