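import Vale.Agent.P207.N3.H576.Calc

/-!
# P207, line N3, P12: partial derivatives of a smooth function of two variables
-/

noncomputable section

open Set Filter Topology
open scoped ContDiff

namespace Vale.Agent.P207.N3.H576

variable {P U M P₁ U₁ : Type} [NormedAddCommGroup P] [NormedSpace ℝ P]
  [NormedAddCommGroup U] [NormedSpace ℝ U] [NormedAddCommGroup M] [NormedSpace ℝ M]
  [NormedAddCommGroup P₁] [NormedSpace ℝ P₁] [NormedAddCommGroup U₁] [NormedSpace ℝ U₁]

/-- the derivative in the first variable -/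
def dp (f : P × U → M) (z : P × U) : P →L[ℝ] M := fderiv ℝ (fun p => f (p, z.2)) z.1

/-- the derivative in the second variable -/
def du (f : P × U → M) (z : P × U) : U →L[ℝ] M := fderiv ℝ (fun u => f (z.1, u)) z.2

theorem hasFDerivAt_dp {f : P × U → M} {z : P × U} (h : DifferentiableAt ℝ f z) :
    HasFDerivAt (fun p => f (p, z.2)) ((fderiv ℝ f z) ∘L ContinuousLinearMap.inl ℝ P U) z.1 := by
  have h1 : HasFDerivAt (fun p : P => (p, z.2)) (ContinuousLinearMap.inl ℝ P U) z.1 :=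
    hasFDerivAt_prodMk_left z.1 z.2
  have h2 : HasFDerivAt f (fderiv ℝ f z) ((fun p : P => (p, z.2)) z.1) := h.hasFDerivAt
  exact h2.comp z.1 h1

theorem hasFDerivAt_du {f : P × U → M} {z : P × U} (h : DifferentiableAt ℝ f z) :
    HasFDerivAt (fun u => f (z.1, u)) ((fderiv ℝ f z) ∘L ContinuousLinearMap.inr ℝ P U) z.2 := by
  have h1 : HasFDerivAt (fun u : U => (z.1, u)) (ContinuousLinearMap.inr ℝ P U) z.2 :=
    hasFDerivAt_prodMk_right z.1 z.2
  have h2 : HasFDerivAt f (fderiv ℝ f z) ((fun u : U => (z.1, u)) z.2) := h.hasFDerivAt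
  exact h2.comp z.2 h1

theorem dp_eq {f : P × U → M} {z : P × U} (h : DifferentiableAt ℝ f z) :
    dp f z = (fderiv ℝ f z) ∘L ContinuousLinearMap.inl ℝ P U := (hasFDerivAt_dp h).fderiv

theorem du_eq {f : P × U → M} {z : P × U} (h : DifferentiableAt ℝ f z) :
    du f z = (fderiv ℝ f z) ∘L ContinuousLinearMap.inr ℝ P U := (hasFDerivAt_du h).fderiv

theorem has_dp {f : P × U → M} {z : P × U} (h : DifferentiableAt ℝ f z) :
    HasFDerivAt (fun p => f (p, z.2)) (dp f z) z.1 := by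
  rw [dp_eq h]
  exact hasFDerivAt_dp h

theorem has_du {f : P × U → M} {z : P × U} (h : DifferentiableAt ℝ f z) :
    HasFDerivAt (fun u => f (z.1, u)) (du f z) z.2 := by
  rw [du_eq h]
  exact hasFDerivAt_du h

omit [NormedSpace ℝ U] in
theorem dp_congr {f g : P × U → M} {z : P × U} (h : f =ᶠ[𝓝 z] g) : dp f =ᶠ[𝓝 z] dp g := by
  filter_upwards [h.eventuallyEq_nhds] with z' hz'
  have h1 : (fun p => f (p, z'.2)) =ᶠ[𝓝 z'.1] fun p => g (p, z'.2) := by
    have h2 : Tendsto (fun p : P => (p, z'.2)) (𝓝 z'.1) (𝓝 z') := by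
      have : ContinuousAt (fun p : P => (p, z'.2)) z'.1 := by fun_prop
      exact this
    exact h2.eventually hz'
  exact h1.fderiv_eq

omit [NormedSpace ℝ P] in
theorem du_congr {f g : P × U → M} {z : P × U} (h : f =ᶠ[𝓝 z] g) : du f =ᶠ[𝓝 z] du g := by
  filter_upwards [h.eventuallyEq_nhds] with z' hz'
  have h1 : (fun u => f (z'.1, u)) =ᶠ[𝓝 z'.2] fun u => g (z'.1, u) := by
    have h2 : Tendsto (fun u : U => (z'.1, u)) (𝓝 z'.2) (𝓝 z') := by
      have : ContinuousAt (fun u : U => (z'.1, u)) z'.2 := by fun_prop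
      exact this
    exact h2.eventually hz'
  exact h1.fderiv_eq

theorem Sm.dp {f : P × U → M} {z : P × U} (h : Sm f z) : Sm (dp f) z := by
  have h1 : (fun z' => (_root_.fderiv ℝ f z') ∘L ContinuousLinearMap.inl ℝ P U) =ᶠ[𝓝 z]
      H576.dp f := by
    filter_upwards [h.ev] with z' hz'
    rw [dp_eq hz'.diff]
  refine Sm.congr ?_ h1
  exact Sm.clm ((ContinuousLinearMap.compL ℝ P (P × U) M).flip (ContinuousLinearMap.inl ℝ P U))
    h.fderiv

theorem Sm.du {f : P × U → M} {z : P × U} (h : Sm f z) : Sm (du f) z := by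
  have h1 : (fun z' => (_root_.fderiv ℝ f z') ∘L ContinuousLinearMap.inr ℝ P U) =ᶠ[𝓝 z]
      H576.du f := by
    filter_upwards [h.ev] with z' hz'
    rw [du_eq hz'.diff]
  refine Sm.congr ?_ h1
  exact Sm.clm ((ContinuousLinearMap.compL ℝ U (P × U) M).flip (ContinuousLinearMap.inr ℝ P U))
    h.fderiv

/-- the slices of a smooth function -/
theorem Sm.left {f : P × U → M} {z : P × U} (h : Sm f z) : Sm (fun p => f (p, z.2)) z.1 := by
  have h1 : Sm (fun p : P => (p, z.2)) z.1 :=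
    Sm.of_contDiff (contDiff_id.prodMk contDiff_const) z.1
  exact Sm.comp (f := f) (b := fun p : P => (p, z.2)) h h1

theorem Sm.right {f : P × U → M} {z : P × U} (h : Sm f z) : Sm (fun u => f (z.1, u)) z.2 := by
  have h1 : Sm (fun u : U => (z.1, u)) z.2 :=
    Sm.of_contDiff (contDiff_const.prodMk contDiff_id) z.2
  exact Sm.comp (f := f) (b := fun u : U => (z.1, u)) h h1

theorem two_le_infty : minSmoothness ℝ 2 ≤ (∞ : WithTop ℕ∞) := by
  rw [minSmoothness_of_isRCLikeNormedField]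
  exact WithTop.coe_le_coe.2 (le_top : (2 : ℕ∞) ≤ ⊤)

/-- the derivatives commute -/
theorem dp_du {f : P × U → M} {z : P × U} (h : Sm f z) (w : P) (v : U) :
    dp (du f) z w v = du (dp f) z v w := by
  have h1 : du f =ᶠ[𝓝 z] fun z' => (fderiv ℝ f z') ∘L ContinuousLinearMap.inr ℝ P U := by
    filter_upwards [h.ev] with z' hz'
    rw [du_eq hz'.diff]
  have h2 : dp f =ᶠ[𝓝 z] fun z' => (fderiv ℝ f z') ∘L ContinuousLinearMap.inl ℝ P U := by
    filter_upwards [h.ev] with z' hz'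
    rw [dp_eq hz'.diff]
  have hd := h.fderiv.diff.hasFDerivAt
  have h3 : HasFDerivAt (fun z' => (fderiv ℝ f z') ∘L ContinuousLinearMap.inr ℝ P U)
      (((ContinuousLinearMap.compL ℝ U (P × U) M).flip (ContinuousLinearMap.inr ℝ P U)) ∘L
        fderiv ℝ (fderiv ℝ f) z) z :=
    ((ContinuousLinearMap.compL ℝ U (P × U) M).flip
      (ContinuousLinearMap.inr ℝ P U)).hasFDerivAt.comp z hd
  have h4 : HasFDerivAt (fun z' => (fderiv ℝ f z') ∘L ContinuousLinearMap.inl ℝ P U)
      (((ContinuousLinearMap.compL ℝ P (P × U) M).flip (ContinuousLinearMap.inl ℝ P U)) ∘L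
        fderiv ℝ (fderiv ℝ f) z) z :=
    ((ContinuousLinearMap.compL ℝ P (P × U) M).flip
      (ContinuousLinearMap.inl ℝ P U)).hasFDerivAt.comp z hd
  rw [(dp_congr h1).eq_of_nhds, (du_congr h2).eq_of_nhds, dp_eq h3.differentiableAt,
    du_eq h4.differentiableAt, h3.fderiv, h4.fderiv]
  have h5 : IsSymmSndFDerivAt ℝ f z := h.at.isSymmSndFDerivAt two_le_infty
  exact h5 (w, 0) (0, v)

/-- the second derivative in one variable is symmetric -/
theorem snd_symm {E : Type} [NormedAddCommGroup E] [NormedSpace ℝ E] {f : E → M} {u : E}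
    (h : Sm f u) (v w : E) : fderiv ℝ (fderiv ℝ f) u v w = fderiv ℝ (fderiv ℝ f) u w v :=
  (h.at.isSymmSndFDerivAt two_le_infty) v w

/-- the second derivative with respect to `q` is symmetric -/
theorem hess_symm {E G : Type} [NormedAddCommGroup E] [NormedSpace ℝ E] [CompleteSpace E]
    [NormedAddCommGroup G] [NormedSpace ℝ G] {q : E → G} {m : E → M} {u : E} (hq : Sm q u)
    (hm : Sm m u) (hi : Inv q u) (y y' : G) : hess q m u y y' = hess q m u y' y := by
  have h1 : fderiv ℝ m =ᶠ[𝓝 u] fun v => (grad q m v) ∘L (fderiv ℝ q v) := by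
    filter_upwards [inv_open hq hi] with v hv
    obtain ⟨e, he⟩ := hv.2
    rw [grad, ← he, ContinuousLinearMap.inverse_equiv]
    ext z
    simp
  have h2 : HasFDerivAt (fun v => (grad q m v) ∘L (fderiv ℝ q v))
      ((ContinuousLinearMap.compL ℝ E G M (grad q m u)) ∘L (fderiv ℝ (fderiv ℝ q) u)
        + ((ContinuousLinearMap.compL ℝ E G M).flip (fderiv ℝ q u)) ∘L
          (fderiv ℝ (grad q m) u)) u :=
    (sm_grad hq hm hi).diff.hasFDerivAt.clm_comp hq.fderiv.diff.hasFDerivAt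
  have h3 : fderiv ℝ (fderiv ℝ m) u = (ContinuousLinearMap.compL ℝ E G M (grad q m u)) ∘L
      (fderiv ℝ (fderiv ℝ q) u) + ((ContinuousLinearMap.compL ℝ E G M).flip (fderiv ℝ q u)) ∘L
          (fderiv ℝ (grad q m) u) := by
    rw [h1.fderiv_eq, h2.fderiv]
  have h4 : ∀ v w, fderiv ℝ (grad q m) u v (fderiv ℝ q u w)
      = fderiv ℝ (grad q m) u w (fderiv ℝ q u v) := by
    intro v w
    have h5 := snd_symm hm v w
    have h6 := snd_symm hq v w
    rw [h3] at h5
    have h7 : grad q m u (fderiv ℝ (fderiv ℝ q) u v w) + fderiv ℝ (grad q m) u v (fderiv ℝ q u w)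
        = grad q m u (fderiv ℝ (fderiv ℝ q) u w v)
          + fderiv ℝ (grad q m) u w (fderiv ℝ q u v) := h5
    rw [h6] at h7
    exact add_left_cancel h7
  obtain ⟨e, he⟩ := hi
  rw [← he] at h4
  have h8 : ∀ z z' : G, hess q m u z z' = fderiv ℝ (grad q m) u (e.symm z) z' := by
    intro z z'
    rw [hess, grad, ← he, ContinuousLinearMap.inverse_equiv]
    rfl
  have h9 := h4 (e.symm y) (e.symm y')
  rw [h8, h8]
  simpa using h9

end Vale.Agent.P207.N3.H576
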