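import Vale.Agent.P207.N3.Spec

/-!
# P207, line N3, P12: the algebra of trace free tensors `Sym² V ⊗ Sym² V*` in dimension two

`T y y' w w'`, `y, y'` covectors, `w, w'` vectors. `cF T` is the component of weight four under
rotations, `kap T` the quadratic invariant. A tensor which is invariant under a linear map with two
eigenvalues of different modulus is `c * mdl` in suitable coordinates, `kap T = 6 c²` and
`6 |c| ≤ ‖cF T‖`.
-/

noncomputable section

open Set Filter Topology Complex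

namespace Vale.Agent.P207.N3.H576

/-- covectors -/
abbrev D2 : Type := E2 →L[ℝ] ℝ

/-- bilinear forms -/
abbrev Q2 : Type := E2 →L[ℝ] E2 →L[ℝ] ℝ

/-- functions of two covectors, two vectors -/
abbrev T4 : Type := D2 → D2 → E2 → E2 → ℝ

/-- the standard basis -/
def bv (i : Fin 2) : E2 := EuclideanSpace.single i 1

/-- the dual basis -/
def dv (i : Fin 2) : D2 := EuclideanSpace.proj i

theorem dv_apply (i : Fin 2) (v : E2) : dv i v = v i := rfl

theorem bv_apply (i j : Fin 2) : (bv i) j = if j = i then 1 else 0 := by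
  rw [bv, PiLp.single_apply]

theorem vec_eq (v : E2) : v = v 0 • bv 0 + v 1 • bv 1 := by
  ext i
  fin_cases i <;> simp [bv]

theorem cov_apply (y : D2) (v : E2) : y v = v 0 * y (bv 0) + v 1 * y (bv 1) := by
  conv_lhs => rw [vec_eq v]
  simp

theorem cov_eq (y : D2) : y = y (bv 0) • dv 0 + y (bv 1) • dv 1 := by
  ext v
  rw [cov_apply y v]
  simp [dv_apply, mul_comm]

/-- the components -/
def co (T : T4) (k l i j : Fin 2) : ℝ := T (dv k) (dv l) (bv i) (bv j)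

/-- `T` is a tensor -/
structure IsT (T : T4) : Prop where
  l1 : ∀ y' w w', IsLinearMap ℝ (fun y => T y y' w w')
  l2 : ∀ y w w', IsLinearMap ℝ (fun y' => T y y' w w')
  l3 : ∀ y y' w', IsLinearMap ℝ (fun w => T y y' w w')
  l4 : ∀ y y' w, IsLinearMap ℝ (fun w' => T y y' w w')

theorem IsT.expand {T : T4} (hT : IsT T) (y y' : D2) (w w' : E2) : T y y' w w'
    = ∑ k, ∑ l, ∑ i, ∑ j, y (bv k) * y' (bv l) * w i * w' j * co T k l i j := by
  have a1 : ∀ y' w w', T y y' w w' = y (bv 0) * T (dv 0) y' w w' + y (bv 1) * T (dv 1) y' w w' := by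
    intro y' w w'
    have h := hT.l1 y' w w'
    conv_lhs => rw [cov_eq y]
    have h2 := h.map_add (y (bv 0) • dv 0) (y (bv 1) • dv 1)
    have h3 := h.map_smul (y (bv 0)) (dv 0)
    have h4 := h.map_smul (y (bv 1)) (dv 1)
    simp only [smul_eq_mul] at h2 h3 h4
    rw [h2, h3, h4]
  have a2 : ∀ z w w', T z y' w w' = y' (bv 0) * T z (dv 0) w w' + y' (bv 1) * T z (dv 1) w w' := by
    intro z w w'
    have h := hT.l2 z w w'
    conv_lhs => rw [cov_eq y']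
    have h2 := h.map_add (y' (bv 0) • dv 0) (y' (bv 1) • dv 1)
    have h3 := h.map_smul (y' (bv 0)) (dv 0)
    have h4 := h.map_smul (y' (bv 1)) (dv 1)
    simp only [smul_eq_mul] at h2 h3 h4
    rw [h2, h3, h4]
  have a3 : ∀ z z' w', T z z' w w' = w 0 * T z z' (bv 0) w' + w 1 * T z z' (bv 1) w' := by
    intro z z' w'
    have h := hT.l3 z z' w'
    conv_lhs => rw [vec_eq w]
    have h2 := h.map_add (w 0 • bv 0) (w 1 • bv 1)
    have h3 := h.map_smul (w 0) (bv 0)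
    have h4 := h.map_smul (w 1) (bv 1)
    simp only [smul_eq_mul] at h2 h3 h4
    rw [h2, h3, h4]
  have a4 : ∀ z z' v, T z z' v w' = w' 0 * T z z' v (bv 0) + w' 1 * T z z' v (bv 1) := by
    intro z z' v
    have h := hT.l4 z z' v
    conv_lhs => rw [vec_eq w']
    have h2 := h.map_add (w' 0 • bv 0) (w' 1 • bv 1)
    have h3 := h.map_smul (w' 0) (bv 0)
    have h4 := h.map_smul (w' 1) (bv 1)
    simp only [smul_eq_mul] at h2 h3 h4
    rw [h2, h3, h4]
  simp only [a1 y', a2 (dv 0), a2 (dv 1), a3, a4, Fin.sum_univ_two, co]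
  ring

theorem IsT.ext {T T' : T4} (hT : IsT T) (hT' : IsT T')
    (h : ∀ k l i j, co T k l i j = co T' k l i j) : T = T' := by
  funext y y' w w'
  rw [hT.expand, hT'.expand]
  simp only [h]

/-- the vector `(1, i)` -/
def zz (i : Fin 2) : ℂ := if i = 0 then 1 else I

theorem zz_zero : zz 0 = 1 := rfl

theorem zz_one : zz 1 = I := rfl

/-- the component of weight four -/
def cF (T : T4) : ℂ := ∑ k, ∑ l, ∑ i, ∑ j, zz k * zz l * zz i * zz j * (co T k l i j : ℂ)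

/-- the quadratic invariant -/
def kap (T : T4) : ℝ := ∑ k, ∑ l, ∑ i, ∑ j, co T k l i j * co T i j k l

/-- the trace with respect to the first covector and the first vector vanishes -/
def TrFree (T : T4) : Prop := ∀ (y : D2) (w : E2), ∑ i, T (dv i) y (bv i) w = 0

/-- symmetric in the covectors and in the vectors -/
def Symm4 (T : T4) : Prop := (∀ y y' w w', T y y' w w' = T y' y w w') ∧
  ∀ y y' w w', T y y' w w' = T y y' w' w

/-- the model -/
def mdl (y y' : D2) (w w' : E2) : ℝ :=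
  y (bv 0) * y' (bv 0) * (w 0 * w' 0) + y (bv 1) * y' (bv 1) * (w 1 * w' 1)
    - (y (bv 0) * y' (bv 1) + y (bv 1) * y' (bv 0)) * (w 0 * w' 1 + w 1 * w' 0)

/-- `T` is `c` times the model, in suitable coordinates -/
def IsMod (c : ℝ) (T : T4) : Prop := ∃ P : E2 ≃L[ℝ] E2, ∀ y y' w w',
  T y y' w w' = c * mdl (y ∘L (P : E2 →L[ℝ] E2)) (y' ∘L (P : E2 →L[ℝ] E2)) (P.symm w) (P.symm w')

/-- `T'` is the transform of `T` under a linear change of coordinates -/
def Act (a : E2 ≃L[ℝ] E2) (T T' : T4) : Prop := ∀ y y' w w',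
  T' y y' w w' = T (y ∘L (a.symm : E2 →L[ℝ] E2)) (y' ∘L (a.symm : E2 →L[ℝ] E2)) (a w) (a w')

theorem Act.isMod {a : E2 ≃L[ℝ] E2} {T T' : T4} (h : Act a T T') {c : ℝ} (hT : IsMod c T) :
    IsMod c T' := by
  obtain ⟨P, hP⟩ := hT
  refine ⟨P.trans a.symm, fun y y' w w' => ?_⟩
  rw [h, hP]
  rfl

theorem Act.symm {a : E2 ≃L[ℝ] E2} {T T' : T4} (h : Act a T T') : Act a.symm T' T := by
  intro y y' w w'
  rw [h]
  have h1 : ∀ y : D2, (y ∘L (a.symm.symm : E2 →L[ℝ] E2)) ∘L (a.symm : E2 →L[ℝ] E2) = y := by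
    intro y
    ext v
    simp
  rw [h1, h1, a.apply_symm_apply, a.apply_symm_apply]

theorem IsMod.eq_zero {T : T4} (h : IsMod 0 T) : ∀ y y' w w', T y y' w w' = 0 := by
  obtain ⟨P, hP⟩ := h
  intro y y' w w'
  rw [hP, zero_mul]

/-- the inverse matrix -/
theorem inv_matrix (P : E2 ≃L[ℝ] E2) : ∃ a b c d e : ℝ, e * (a * d - b * c) = 1 ∧
    (P.symm (bv 0)) 0 = a ∧ (P.symm (bv 1)) 0 = b ∧ (P.symm (bv 0)) 1 = c ∧
    (P.symm (bv 1)) 1 = d ∧ (P (bv 0)) 0 = e * d ∧ (P (bv 1)) 0 = - (e * b) ∧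
    (P (bv 0)) 1 = - (e * c) ∧ (P (bv 1)) 1 = e * a := by
  have h0 : ∀ j, P.symm (P (bv j)) = bv j := fun j => P.symm_apply_apply _
  have h1 : ∀ j i, ((P (bv j)) 0) * (P.symm (bv 0)) i + ((P (bv j)) 1) * (P.symm (bv 1)) i
      = (bv j) i := by
    intro j i
    have h2 := h0 j
    rw [vec_eq (P (bv j)), map_add, map_smul, map_smul] at h2
    have h3 := congrArg (fun v : E2 => v i) h2
    simpa using h3
  have e00 := h1 0 0
  have e01 := h1 0 1
  have e10 := h1 1 0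
  have e11 := h1 1 1
  simp only [bv_apply] at e00 e01 e10 e11
  norm_num at e00 e01 e10 e11
  generalize (P.symm (bv 0)) 0 = a at *
  generalize (P.symm (bv 1)) 0 = b at *
  generalize (P.symm (bv 0)) 1 = c at *
  generalize (P.symm (bv 1)) 1 = d at *
  generalize (P (bv 0)) 0 = p at *
  generalize (P (bv 1)) 0 = q at *
  generalize (P (bv 0)) 1 = r at *
  generalize (P (bv 1)) 1 = s at *
  have hdet : (p * s - r * q) * (a * d - b * c) = 1 := by
    have : (p * s - r * q) * (a * d - b * c)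
        = (p * a + r * b) * (q * c + s * d) - (p * c + r * d) * (q * a + s * b) := by ring
    rw [this, e00, e01, e10, e11]
    norm_num
  have hne : a * d - b * c ≠ 0 := fun h => by rw [h] at hdet; norm_num at hdet
  refine ⟨a, b, c, d, p * s - r * q, hdet, rfl, rfl, rfl, rfl, ?_, ?_, ?_, ?_⟩
  all_goals
    apply mul_right_cancel₀ hne
  · linear_combination d * e00 - b * e01 - d * hdet
  · linear_combination d * e10 - b * e11 + b * hdet
  · linear_combination (-c) * e00 + a * e01 + c * hdet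
  · linear_combination (-c) * e10 + a * e11 - a * hdet

theorem IsMod.co_eq {T : T4} {c : ℝ} {P : E2 ≃L[ℝ] E2}
    (h : ∀ y y' w w', T y y' w w' = c * mdl (y ∘L (P : E2 →L[ℝ] E2)) (y' ∘L (P : E2 →L[ℝ] E2))
      (P.symm w) (P.symm w')) (k l i j : Fin 2) :
    co T k l i j = c * ((P (bv 0)) k * (P (bv 0)) l * ((P.symm (bv i)) 0 * (P.symm (bv j)) 0)
      + (P (bv 1)) k * (P (bv 1)) l * ((P.symm (bv i)) 1 * (P.symm (bv j)) 1)
      - ((P (bv 0)) k * (P (bv 1)) l + (P (bv 1)) k * (P (bv 0)) l)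
        * ((P.symm (bv i)) 0 * (P.symm (bv j)) 1 + (P.symm (bv i)) 1 * (P.symm (bv j)) 0)) := by
  rw [co, h, mdl]
  simp only [ContinuousLinearMap.comp_apply, dv_apply, ContinuousLinearEquiv.coe_coe]

theorem IsMod.kap {T : T4} {c : ℝ} (h : IsMod c T) : kap T = 6 * c ^ 2 := by
  obtain ⟨P, hP⟩ := h
  obtain ⟨a, b, c', d, e, he, h1, h2, h3, h4, h5, h6, h7, h8⟩ := inv_matrix P
  have hco := IsMod.co_eq hP
  rw [H576.kap]
  simp only [Fin.sum_univ_two, hco, h1, h2, h3, h4, h5, h6, h7, h8]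
  have h9 : (e * (a * d - b * c')) ^ 4 = 1 := by rw [he]; norm_num
  linear_combination 6 * c ^ 2 * h9

theorem IsMod.cF {T : T4} {c : ℝ} (h : IsMod c T) : 6 * |c| ≤ ‖cF T‖ := by
  obtain ⟨P, hP⟩ := h
  obtain ⟨a, b, c', d, e, he, h1, h2, h3, h4, h5, h6, h7, h8⟩ := inv_matrix P
  have hco := IsMod.co_eq hP
  have h9 : H576.cF T = -6 * c * e ^ 2 * ((a : ℂ) + b * I) ^ 2 * (c' + d * I) ^ 2 := by
    rw [H576.cF]
    simp only [Fin.sum_univ_two, hco, h1, h2, h3, h4, h5, h6, h7, h8, zz_zero, zz_one]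
    push_cast
    have hI : I ^ 2 = -1 := Complex.I_sq
    have hI3 : I ^ 3 = -I := by rw [pow_succ, hI]; ring
    have hI4 : I ^ 4 = 1 := by
      rw [show (4 : ℕ) = 2 + 2 from rfl, pow_add, hI]; ring
    ring_nf
    simp only [hI, hI3, hI4]
    ring
  have h10 : ‖((a : ℂ) + b * I)‖ ^ 2 = a ^ 2 + b ^ 2 := by
    rw [← Complex.normSq_eq_norm_sq, Complex.normSq_add_mul_I]
  have h11 : ‖((c' : ℂ) + d * I)‖ ^ 2 = c' ^ 2 + d ^ 2 := by
    rw [← Complex.normSq_eq_norm_sq, Complex.normSq_add_mul_I]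
  have h12 : ‖H576.cF T‖ = 6 * |c| * e ^ 2 * (a ^ 2 + b ^ 2) * (c' ^ 2 + d ^ 2) := by
    rw [h9, norm_mul, norm_mul, norm_pow, norm_pow, h10, h11, norm_mul, norm_mul, norm_pow]
    simp
  rw [h12]
  have h13 : 1 ≤ e ^ 2 * (a ^ 2 + b ^ 2) * (c' ^ 2 + d ^ 2) := by
    have h14 : e ^ 2 * (a ^ 2 + b ^ 2) * (c' ^ 2 + d ^ 2)
        = (e * (a * d - b * c')) ^ 2 + (e * (a * c' + b * d)) ^ 2 := by ring
    rw [h14, he]
    nlinarith [sq_nonneg (e * (a * c' + b * d))]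
  have h15 : 0 ≤ 6 * |c| := by positivity
  nlinarith [mul_le_mul_of_nonneg_left h13 h15]

theorem Act.isT {a : E2 ≃L[ℝ] E2} {T T' : T4} (h : Act a T T') (hT : IsT T) : IsT T' := by
  refine ⟨fun y' w w' => ⟨fun y z => ?_, fun c y => ?_⟩, fun y w w' => ⟨fun y z => ?_, fun c y => ?_⟩,
    fun y y' w' => ⟨fun y z => ?_, fun c y => ?_⟩, fun y y' w => ⟨fun y z => ?_, fun c y => ?_⟩⟩
  · rw [h, h, h, ContinuousLinearMap.add_comp]
    exact (hT.l1 _ _ _).map_add _ _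
  · rw [h, h, ContinuousLinearMap.smul_comp]
    exact (hT.l1 _ _ _).map_smul _ _
  · rw [h, h, h, ContinuousLinearMap.add_comp]
    exact (hT.l2 _ _ _).map_add _ _
  · rw [h, h, ContinuousLinearMap.smul_comp]
    exact (hT.l2 _ _ _).map_smul _ _
  · rw [h, h, h, map_add]
    exact (hT.l3 _ _ _).map_add _ _
  · rw [h, h, map_smul]
    exact (hT.l3 _ _ _).map_smul _ _
  · rw [h, h, h, map_add]
    exact (hT.l4 _ _ _).map_add _ _
  · rw [h, h, map_smul]
    exact (hT.l4 _ _ _).map_smul _ _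

theorem Act.symm4 {a : E2 ≃L[ℝ] E2} {T T' : T4} (h : Act a T T') (hT : Symm4 T) : Symm4 T' := by
  refine ⟨fun y y' w w' => ?_, fun y y' w w' => ?_⟩
  · rw [h, h]
    exact hT.1 _ _ _ _
  · rw [h, h]
    exact hT.2 _ _ _ _

theorem Act.trFree {a : E2 ≃L[ℝ] E2} {T T' : T4} (h : Act a T T') (hT : IsT T)
    (hF : TrFree T) : TrFree T' := by
  intro y w
  have h0 := hF (y ∘L (a.symm : E2 →L[ℝ] E2)) (a w)
  set y1 := y ∘L (a.symm : E2 →L[ℝ] E2)
  set w1 := a w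
  have h1 : ∀ (z : D2) (v : E2), T z y1 v w1 = ∑ k, ∑ i, z (bv k) * v i * T (dv k) y1 (bv i) w1 := by
    intro z v
    have e1 := (hT.l1 y1 v w1)
    have e2 := fun k => (hT.l3 (dv k) y1 w1)
    have f1 := e1.map_add (z (bv 0) • dv 0) (z (bv 1) • dv 1)
    rw [← cov_eq z] at f1
    have f2 := e1.map_smul (z (bv 0)) (dv 0)
    have f3 := e1.map_smul (z (bv 1)) (dv 1)
    have f4 := fun k => (e2 k).map_add (v 0 • bv 0) (v 1 • bv 1)
    have f5 := fun k => (e2 k).map_smul (v 0) (bv 0)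
    have f6 := fun k => (e2 k).map_smul (v 1) (bv 1)
    simp only [← vec_eq v, smul_eq_mul] at f1 f2 f3 f4 f5 f6
    simp only [Fin.sum_univ_two]
    rw [f1, f2, f3, f4 0, f4 1, f5 0, f5 1, f6 0, f6 1]
    ring
  obtain ⟨p, q, r, s, e, he, g1, g2, g3, g4, g5, g6, g7, g8⟩ := inv_matrix a.symm
  simp only [ContinuousLinearEquiv.symm_symm] at g1 g2 g3 g4
  simp only [h _ _ _ _]
  simp only [Fin.sum_univ_two] at h0 ⊢
  rw [h1, h1]
  simp only [Fin.sum_univ_two, ContinuousLinearMap.comp_apply, ContinuousLinearEquiv.coe_coe,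
    dv_apply, g1, g2, g3, g4, g5, g6, g7, g8]
  linear_combination h0 + (T (dv 0) y1 (bv 0) w1 + T (dv 1) y1 (bv 1) w1) * he

/-- the classification of invariant tensors -/
theorem isMod_of_inv {T : T4} (hT : IsT T) (hS : Symm4 T) (hF : TrFree T) (P : E2 ≃L[ℝ] E2)
    (m : Fin 2 → ℝ) (h0 : m 0 ≠ 0) (h1 : m 1 ≠ 0) (hne : |m 0| ≠ |m 1|) (L : E2 →L[ℝ] E2)
    (hL : ∀ i, L (P (bv i)) = m i • P (bv i))
    (hinv : ∀ y y' w w', T (y ∘L L) (y' ∘L L) w w' = T y y' (L w) (L w')) : ∃ c, IsMod c T := by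
  set T' : T4 := fun y y' w w' => T (y ∘L (P.symm : E2 →L[ℝ] E2)) (y' ∘L (P.symm : E2 →L[ℝ] E2))
    (P w) (P w') with hT'
  have hA : Act P T T' := fun y y' w w' => rfl
  have hT1 := hA.isT hT
  have hS1 := hA.symm4 hS
  have hF1 := hA.trFree hT hF
  have hd : ∀ k, (dv k ∘L (P.symm : E2 →L[ℝ] E2)) ∘L L
      = m k • (dv k ∘L (P.symm : E2 →L[ℝ] E2)) := by
    intro k
    ext v
    have h3 : v = (P.symm v) 0 • P (bv 0) + (P.symm v) 1 • P (bv 1) := by
      have h4 := congrArg P (vec_eq (P.symm v))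
      rw [P.apply_symm_apply, map_add, map_smul, map_smul] at h4
      exact h4
    have h5 : L v = ((P.symm v) 0 * m 0) • P (bv 0) + ((P.symm v) 1 * m 1) • P (bv 1) := by
      conv_lhs => rw [h3]
      rw [map_add, map_smul, map_smul, hL, hL, smul_smul, smul_smul]
    simp only [ContinuousLinearMap.comp_apply, ContinuousLinearEquiv.coe_coe,
      _root_.smul_apply, dv_apply, smul_eq_mul]
    rw [h5, map_add, map_smul, map_smul, P.symm_apply_apply, P.symm_apply_apply]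
    fin_cases k
    · simp [bv_apply]
      ring
    · simp [bv_apply]
      ring
  have hco : ∀ k l i j, (m k * m l - m i * m j) * co T' k l i j = 0 := by
    intro k l i j
    have h3 := hinv (dv k ∘L (P.symm : E2 →L[ℝ] E2)) (dv l ∘L (P.symm : E2 →L[ℝ] E2))
      (P (bv i)) (P (bv j))
    rw [hd, hd, hL, hL] at h3
    have e1 := (hT.l1 (m l • (dv l ∘L (P.symm : E2 →L[ℝ] E2))) (P (bv i)) (P (bv j))).map_smul
      (m k) (dv k ∘L (P.symm : E2 →L[ℝ] E2))
    have e2 := (hT.l2 (dv k ∘L (P.symm : E2 →L[ℝ] E2)) (P (bv i)) (P (bv j))).map_smul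
      (m l) (dv l ∘L (P.symm : E2 →L[ℝ] E2))
    have e3 := (hT.l3 (dv k ∘L (P.symm : E2 →L[ℝ] E2)) (dv l ∘L (P.symm : E2 →L[ℝ] E2))
      (m j • P (bv j))).map_smul (m i) (P (bv i))
    have e4 := (hT.l4 (dv k ∘L (P.symm : E2 →L[ℝ] E2)) (dv l ∘L (P.symm : E2 →L[ℝ] E2))
      (P (bv i))).map_smul (m j) (P (bv j))
    simp only [smul_eq_mul] at e1 e2 e3 e4
    rw [e1, e2, e3, e4] at h3
    have h4 : co T' k l i j = T (dv k ∘L (P.symm : E2 →L[ℝ] E2)) (dv l ∘L (P.symm : E2 →L[ℝ] E2))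
      (P (bv i)) (P (bv j)) := rfl
    rw [h4]
    linear_combination h3
  have hne2 : m 0 ≠ m 1 := fun h => hne (by rw [h])
  have hne3 : m 0 * m 0 ≠ m 1 * m 1 := fun h => hne (by
    have h5 : m 0 ^ 2 = m 1 ^ 2 := by rw [pow_two, pow_two, h]
    exact sq_eq_sq_iff_abs_eq_abs _ _ |>.1 h5)
  have z1 : ∀ k l i j, m k * m l - m i * m j ≠ 0 → co T' k l i j = 0 := fun k l i j h5 =>
    (mul_eq_zero.1 (hco k l i j)).resolve_left h5
  have n1 : m 0 * m 0 - m 0 * m 1 ≠ 0 := by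
    rw [← mul_sub]
    exact mul_ne_zero h0 (sub_ne_zero.2 hne2)
  have n2 : m 0 * m 1 - m 1 * m 1 ≠ 0 := by
    rw [← sub_mul]
    exact mul_ne_zero (sub_ne_zero.2 hne2) h1
  have n3 : m 0 * m 0 - m 1 * m 1 ≠ 0 := sub_ne_zero.2 hne3
  have c1 : co T' 0 0 0 1 = 0 := z1 _ _ _ _ n1
  have c2 : co T' 0 0 1 0 = 0 := z1 _ _ _ _ (by rw [mul_comm (m 1)]; exact n1)
  have c3 : co T' 0 0 1 1 = 0 := z1 _ _ _ _ n3
  have c4 : co T' 0 1 0 0 = 0 := z1 _ _ _ _ (by rw [← neg_sub]; exact neg_ne_zero.2 n1)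
  have c5 : co T' 0 1 1 1 = 0 := z1 _ _ _ _ n2
  have c6 : co T' 1 0 0 0 = 0 := z1 _ _ _ _
    (by rw [mul_comm (m 1), ← neg_sub]; exact neg_ne_zero.2 n1)
  have c7 : co T' 1 0 1 1 = 0 := z1 _ _ _ _ (by rw [mul_comm (m 1) (m 0)]; exact n2)
  have c8 : co T' 1 1 0 0 = 0 := z1 _ _ _ _ (by rw [← neg_sub]; exact neg_ne_zero.2 n3)
  have c9 : co T' 1 1 0 1 = 0 := z1 _ _ _ _ (by rw [← neg_sub]; exact neg_ne_zero.2 n2)
  have c10 : co T' 1 1 1 0 = 0 := z1 _ _ _ _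
    (by rw [mul_comm (m 1) (m 0), ← neg_sub]; exact neg_ne_zero.2 n2)
  have s1 : co T' 0 1 1 0 = co T' 0 1 0 1 := hS1.2 _ _ _ _
  have s2 : co T' 1 0 0 1 = co T' 0 1 0 1 := hS1.1 _ _ _ _
  have s3 : co T' 1 0 1 0 = co T' 0 1 0 1 := by
    rw [← s1]
    exact hS1.1 _ _ _ _
  have t1 : co T' 0 0 0 0 + co T' 1 0 1 0 = 0 := by
    have := hF1 (dv 0) (bv 0)
    rw [Fin.sum_univ_two] at this
    exact this
  have t2 : co T' 0 1 0 1 + co T' 1 1 1 1 = 0 := by
    have := hF1 (dv 1) (bv 1)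
    rw [Fin.sum_univ_two] at this
    exact this
  refine ⟨co T' 0 0 0 0, hA.symm.isMod ⟨ContinuousLinearEquiv.refl ℝ E2, fun y y' w w' => ?_⟩⟩
  have r1 : ∀ y : D2, y ∘L ((ContinuousLinearEquiv.refl ℝ E2 : E2 ≃L[ℝ] E2) : E2 →L[ℝ] E2) = y := by
    intro y
    ext v
    rfl
  rw [r1, r1, hT1.expand, mdl]
  simp only [Fin.sum_univ_two, c1, c2, c3, c4, c5, c6, c7, c8, c9, c10, s1, s2, s3,
    ContinuousLinearEquiv.refl_symm, ContinuousLinearEquiv.coe_refl', id]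
  have u1 : co T' 1 1 1 1 = co T' 0 0 0 0 := by linarith
  have u2 : co T' 0 1 0 1 = - co T' 0 0 0 0 := by linarith
  rw [u1, u2]
  ring

end Vale.Agent.P207.N3.H576
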