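import Vale.Agent.P207.N3.H576.Par
import Vale.Agent.P207.N3.H576.Quart

/-!
# P207, line N3, P12: the tensor of a function of two variables

`f (p, u)` is `D` in two charts of the boundary. `dp f (p, ·)` is the affine chart of the leaf of
`p`, `Rd f` the second derivative of `dp (dp f)` with respect to it.
-/

noncomputable section

open Set Filter Topology
open scoped ContDiff

namespace Vale.Agent.P207.N3.H576

/-- the mixed derivative is nondegenerate -/
def Nd (f : E2 × E2 → ℝ) (z : E2 × E2) : Prop := Inv (fun u => dp f (z.1, u)) z.2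

/-- the tensor -/
def Rd (f : E2 × E2 → ℝ) (z : E2 × E2) : T4 := fun y y' w w' =>
  hess (fun u => dp f (z.1, u)) (fun u => dp (dp f) (z.1, u)) z.2 y y' w w'

theorem Rd_isT (f : E2 × E2 → ℝ) (z : E2 × E2) : IsT (Rd f z) := by
  refine ⟨fun y' w w' => ⟨fun y z => ?_, fun c y => ?_⟩, fun y w w' => ⟨fun y z => ?_, fun c y => ?_⟩,
    fun y y' w' => ⟨fun y z => ?_, fun c y => ?_⟩, fun y y' w => ⟨fun y z => ?_, fun c y => ?_⟩⟩
  all_goals simp [Rd]

/-- evaluation of the second derivative -/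
theorem hess_eval {q : E2 → D2} {m : E2 → Q2} {u : E2} (hq : Sm q u) (hm : Sm m u) (hi : Inv q u)
    (y y' : D2) (w w' : E2) :
    hess q m u y y' w w' = hess q (fun v => m v w w') u y y' := by
  have h1 := hess_clm ((ContinuousLinearMap.apply ℝ ℝ w') ∘L
    (ContinuousLinearMap.apply ℝ (E2 →L[ℝ] ℝ) w)) hq hm hi y y'
  exact h1.symm

theorem Sm.eval {m : E2 → Q2} {u : E2} (hm : Sm m u) (w w' : E2) :
    Sm (fun v => m v w w') u := by
  have h : Sm (fun v => ((ContinuousLinearMap.apply ℝ ℝ w' : (E2 →L[ℝ] ℝ) →L[ℝ] ℝ) ∘L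
    (ContinuousLinearMap.apply ℝ (E2 →L[ℝ] ℝ) w : Q2 →L[ℝ] (E2 →L[ℝ] ℝ))) (m v)) u := Sm.clm _ hm
  exact h

/-- the second derivative in `p` is symmetric -/
theorem dpdp_symm {f : E2 × E2 → ℝ} {z : E2 × E2} (hf : Sm f z) (w w' : E2) :
    dp (dp f) z w w' = dp (dp f) z w' w := by
  have h1 := snd_symm hf.left w w'
  have h2 : fderiv ℝ (fderiv ℝ fun p => f (p, z.2)) z.1 = dp (dp f) z := rfl
  rw [h2] at h1
  exact h1

theorem Rd_symm4 {f : E2 × E2 → ℝ} {z : E2 × E2} (hf : Sm f z) (hn : Nd f z) :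
    Symm4 (Rd f z) := by
  have hq : Sm (fun u => dp f (z.1, u)) z.2 := hf.dp.right
  have hm : Sm (fun u => dp (dp f) (z.1, u)) z.2 := hf.dp.dp.right
  refine ⟨fun y y' w w' => ?_, fun y y' w w' => ?_⟩
  · rw [Rd, Rd, hess_symm hq hm hn y y']
  · rw [Rd, Rd, hess_eval hq hm hn, hess_eval hq hm hn]
    have h1 : (fun u => dp (dp f) (z.1, u) w w') =ᶠ[𝓝 z.2] fun u => dp (dp f) (z.1, u) w' w := by
      have h2 : Tendsto (fun u : E2 => (z.1, u)) (𝓝 z.2) (𝓝 z) := by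
        have : ContinuousAt (fun u : E2 => (z.1, u)) z.2 := by fun_prop
        exact this
      filter_upwards [h2.eventually hf.ev] with u hu
      exact dpdp_symm hu w w'
    rw [hess_congr (Filter.EventuallyEq.refl _ _) h1]

/-- precomposition with an invertible map, on covectors -/
def pre (a : E2 ≃L[ℝ] E2) : D2 ≃L[ℝ] D2 := a.symm.arrowCongr (ContinuousLinearEquiv.refl ℝ ℝ)

theorem pre_apply (a : E2 ≃L[ℝ] E2) (y : D2) : pre a y = y ∘L (a : E2 →L[ℝ] E2) := by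
  ext v
  rfl

theorem pre_symm_apply (a : E2 ≃L[ℝ] E2) (y : D2) :
    (pre a).symm y = y ∘L (a.symm : E2 →L[ℝ] E2) := by
  ext v
  rfl

section change

variable {f f' : E2 × E2 → ℝ} {al be : E2 → E2} {g1 g2 : E2 → ℝ} {z : E2 × E2}

theorem dp_change (hal : Sm al z.1) (hbe : Sm be z.2) (hf : Sm f (al z.1, be z.2))
    (hg : Sm g1 z.1) (h : f' =ᶠ[𝓝 z] fun x => f (al x.1, be x.2) + g1 x.1 + g2 x.2) :
    dp f' =ᶠ[𝓝 z] fun x => (dp f (al x.1, be x.2)) ∘L (fderiv ℝ al x.1) + fderiv ℝ g1 x.1 := by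
  have h1 : ContinuousAt (fun x : E2 × E2 => (al x.1, be x.2)) z := by
    have c1 : ContinuousAt al z.1 := hal.at.continuousAt
    have c2 : ContinuousAt be z.2 := hbe.at.continuousAt
    exact (ContinuousAt.comp (f := fun x : E2 × E2 => x.1) c1 continuousAt_fst).prodMk
      (ContinuousAt.comp (f := fun x : E2 × E2 => x.2) c2 continuousAt_snd)
  have h2 : ∀ᶠ x in 𝓝 z, Sm al x.1 := continuousAt_fst.eventually hal.ev
  have h3 : ∀ᶠ x in 𝓝 z, Sm g1 x.1 := continuousAt_fst.eventually hg.ev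
  filter_upwards [dp_congr h, h1.eventually hf.ev, h2, h3] with x hx hx1 hx2 hx3
  rw [hx]
  have h4 : HasFDerivAt (fun p => f (p, be x.2)) (dp f (al x.1, be x.2)) (al x.1) :=
    has_dp (z := (al x.1, be x.2)) hx1.diff
  have h5 : HasFDerivAt (fun p => f (al p, be x.2) + g1 p + g2 x.2)
      ((dp f (al x.1, be x.2)) ∘L (fderiv ℝ al x.1) + fderiv ℝ g1 x.1) x.1 :=
    ((h4.comp x.1 hx2.diff.hasFDerivAt).add hx3.diff.hasFDerivAt).add_const _
  exact h5.fderiv

/-- the change of the second derivative -/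
theorem dpdp_change (hal : Sm al z.1) (hbe : Sm be z.2) (hf : Sm f (al z.1, be z.2))
    (hg : Sm g1 z.1) (h : f' =ᶠ[𝓝 z] fun x => f (al x.1, be x.2) + g1 x.1 + g2 x.2) (w w' : E2) :
    (fun u => dp (dp f') (z.1, u) w w') =ᶠ[𝓝 z.2] fun u =>
      dp (dp f) (al z.1, be u) (fderiv ℝ al z.1 w) (fderiv ℝ al z.1 w')
      + dp f (al z.1, be u) (fderiv ℝ (fderiv ℝ al) z.1 w w')
      + fderiv ℝ (fderiv ℝ g1) z.1 w w' := by
  have h0 : Tendsto (fun u : E2 => (z.1, u)) (𝓝 z.2) (𝓝 z) := by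
    have : ContinuousAt (fun u : E2 => (z.1, u)) z.2 := by fun_prop
    exact this
  have h1 : ∀ᶠ u in 𝓝 z.2, Sm f (al z.1, be u) := by
    have c2 : ContinuousAt (fun u => (al z.1, be u)) z.2 :=
      continuousAt_const.prodMk hbe.at.continuousAt
    exact c2.eventually hf.ev
  filter_upwards [h0.eventually (dp_congr (dp_change hal hbe hf hg h)), h1] with u hu hu1
  rw [hu]
  have h4 : HasFDerivAt (fun p => dp f (p, be u)) (dp (dp f) (al z.1, be u)) (al z.1) :=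
    has_dp (z := (al z.1, be u)) hu1.dp.diff
  have h5 : HasFDerivAt (fun p => dp f (al p, be u))
      ((dp (dp f) (al z.1, be u)) ∘L (fderiv ℝ al z.1)) z.1 :=
    h4.comp z.1 hal.diff.hasFDerivAt
  have h6 := (h5.clm_comp hal.fderiv.diff.hasFDerivAt).add hg.fderiv.diff.hasFDerivAt
  have h7 : dp (fun x : E2 × E2 => (dp f (al x.1, be x.2)) ∘L (fderiv ℝ al x.1)
      + fderiv ℝ g1 x.1) (z.1, u) = _ := h6.fderiv
  rw [h7]
  simp only [_root_.add_apply, ContinuousLinearMap.comp_apply,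
    ContinuousLinearMap.compL_apply, ContinuousLinearMap.flip_apply]
  ring

theorem Nd_change {a : E2 ≃L[ℝ] E2} (ha : fderiv ℝ al z.1 = a) (hbi : Inv be z.2)
    (hal : Sm al z.1) (hbe : Sm be z.2) (hf : Sm f (al z.1, be z.2))
    (hg : Sm g1 z.1) (h : f' =ᶠ[𝓝 z] fun x => f (al x.1, be x.2) + g1 x.1 + g2 x.2)
    (hn : Nd f (al z.1, be z.2)) : Nd f' z := by
  have h0 : Tendsto (fun u : E2 => (z.1, u)) (𝓝 z.2) (𝓝 z) := by
    have : ContinuousAt (fun u : E2 => (z.1, u)) z.2 := by fun_prop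
    exact this
  have h1 : (fun u => dp f' (z.1, u)) =ᶠ[𝓝 z.2] fun u => pre a (dp f (al z.1, be u))
      + fderiv ℝ g1 z.1 := by
    filter_upwards [h0.eventually (dp_change hal hbe hf hg h)] with u hu
    rw [hu, ha, pre_apply]
  obtain ⟨e, he⟩ := hn
  obtain ⟨e', he'⟩ := hbi
  have hq : Sm (fun u => dp f (al z.1, u)) (be z.2) := (hf.dp.right : _)
  have h2 : HasFDerivAt (fun u => pre a (dp f (al z.1, be u)) + fderiv ℝ g1 z.1)
      ((pre a : D2 →L[ℝ] D2) ∘L ((fderiv ℝ (fun u => dp f (al z.1, u)) (be z.2)) ∘L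
        fderiv ℝ be z.2)) z.2 :=
    ((pre a).hasFDerivAt.comp z.2 (hq.diff.hasFDerivAt.comp z.2 hbe.diff.hasFDerivAt)).add_const _
  have he2 : fderiv ℝ (fun u => dp f (al z.1, u)) (be z.2) = e := he.symm
  rw [he2, ← he'] at h2
  rw [Nd, Inv, h1.fderiv_eq, h2.fderiv]
  exact ⟨(e'.trans e).trans (pre a), rfl⟩

/-- **the transformation law** -/
theorem Rd_change {a : E2 ≃L[ℝ] E2} (ha : fderiv ℝ al z.1 = a) (hbi : Inv be z.2)
    (hal : Sm al z.1) (hbe : Sm be z.2) (hf : Sm f (al z.1, be z.2))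
    (hg : Sm g1 z.1) (h : f' =ᶠ[𝓝 z] fun x => f (al x.1, be x.2) + g1 x.1 + g2 x.2)
    (hf' : Sm f' z) (hn : Nd f (al z.1, be z.2)) : Act a (Rd f (al z.1, be z.2)) (Rd f' z) := by
  intro y y' w w'
  have hn' := Nd_change ha hbi hal hbe hf hg h hn
  have h0 : Tendsto (fun u : E2 => (z.1, u)) (𝓝 z.2) (𝓝 z) := by
    have : ContinuousAt (fun u : E2 => (z.1, u)) z.2 := by fun_prop
    exact this
  have h1 : (fun u => dp f' (z.1, u)) =ᶠ[𝓝 z.2] fun u => pre a (dp f (al z.1, be u))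
      + fderiv ℝ g1 z.1 := by
    filter_upwards [h0.eventually (dp_change hal hbe hf hg h)] with u hu
    rw [hu, ha, pre_apply]
  have h2 := dpdp_change hal hbe hf hg h w w'
  rw [ha] at h2
  have hq : Sm (fun u => dp f (al z.1, u)) (be z.2) := (hf.dp.right : _)
  have hm : Sm (fun u => dp (dp f) (al z.1, u)) (be z.2) := (hf.dp.dp.right : _)
  have hqb : Sm (fun u => dp f (al z.1, be u)) z.2 := hq.comp hbe
  have hmb : Sm (fun u => dp (dp f) (al z.1, be u)) z.2 := hm.comp hbe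
  have hqi : Inv (fun u => dp f (al z.1, u)) (be z.2) := hn
  have hqbi : Inv (fun u => dp f (al z.1, be u)) z.2 := by
    obtain ⟨e, he⟩ := hqi
    obtain ⟨e', he'⟩ := hbi
    have h3 : HasFDerivAt (fun u => dp f (al z.1, be u))
        ((fderiv ℝ (fun u => dp f (al z.1, u)) (be z.2)) ∘L fderiv ℝ be z.2) z.2 :=
      hq.diff.hasFDerivAt.comp z.2 hbe.diff.hasFDerivAt
    rw [Inv, h3.fderiv, ← he, ← he']
    exact ⟨e'.trans e, rfl⟩
  set v0 : E2 := fderiv ℝ (fderiv ℝ al) z.1 w w' with hv0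
  set c0 : ℝ := fderiv ℝ (fderiv ℝ g1) z.1 w w' with hc0
  set ev : D2 →L[ℝ] ℝ := ContinuousLinearMap.apply ℝ ℝ v0 with hev
  have h2' : (fun u => dp (dp f') (z.1, u) w w') =ᶠ[𝓝 z.2] fun u =>
      (dp (dp f) (al z.1, be u) (a w) (a w') + ev (dp f (al z.1, be u))) + c0 := h2
  have s1 : Sm (fun u => dp (dp f) (al z.1, be u) (a w) (a w')) z.2 := hmb.eval (a w) (a w')
  have s2 : Sm (fun u => ev (dp f (al z.1, be u))) z.2 := hqb.clm ev
  rw [Rd, hess_eval (m := fun u => dp (dp f') (z.1, u)) hf'.dp.right hf'.dp.dp.right hn',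
    hess_congr h1 h2', hess_q_add_const,
    hess_left (pre a) hqb ((s1.add s2).add (Sm.const _ _)) hqbi, pre_symm_apply, pre_symm_apply]
  rw [hess_add hqb (s1.add s2) (Sm.const _ _) hqbi, hess_const, add_zero,
    hess_add hqb s1 s2 hqbi]
  have h5 : hess (fun u => dp f (al z.1, be u)) (fun v => ev (dp f (al z.1, be v))) z.2 = 0 := by
    ext1 v
    ext1 v'
    rw [hess_clm _ hqb hqb hqbi, hess_self hqb hqbi]
    simp
  have h6 : hess (fun u => dp f (al z.1, be u)) (fun v => dp (dp f) (al z.1, be v) (a w) (a w')) z.2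
      = hess (fun u => dp f (al z.1, u)) (fun v => dp (dp f) (al z.1, v) (a w) (a w')) (be z.2) :=
    hess_comp (q := fun u => dp f (al z.1, u))
      (m := fun v => dp (dp f) (al z.1, v) (a w) (a w')) hq (hm.eval (a w) (a w')) hbe hqi hbi
  rw [h5, add_zero, h6, Rd, hess_eval hq hm hqi]

end change

end Vale.Agent.P207.N3.H576
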