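import Vale.Agent.P207.N3.H576.Ten

/-!
# P207, line N3, P12: the Monge-Ampere equation gives the trace of the tensor
-/

noncomputable section

open Set Filter Topology
open scoped ContDiff

namespace Vale.Agent.P207.N3.H576

theorem diff_eval {E G M N : Type} [NormedAddCommGroup E] [NormedSpace ℝ E]
    [NormedAddCommGroup G] [NormedSpace ℝ G] [NormedAddCommGroup M] [NormedSpace ℝ M]
    [NormedAddCommGroup N] [NormedSpace ℝ N] {A : E → G →L[ℝ] M} {u : E}
    (hA : DifferentiableAt ℝ A u) (k : G) (T : M →L[ℝ] N) :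
    DifferentiableAt ℝ (fun v => T (A v k)) u :=
  (T ∘L (ContinuousLinearMap.apply ℝ M k)).differentiableAt.comp u hA

theorem grad_eval {E G M N : Type} [NormedAddCommGroup E] [NormedSpace ℝ E]
    [NormedAddCommGroup G] [NormedSpace ℝ G] [NormedAddCommGroup M] [NormedSpace ℝ M]
    [NormedAddCommGroup N] [NormedSpace ℝ N] {q : E → G} {A : E → G →L[ℝ] M} {u : E}
    (hA : DifferentiableAt ℝ A u) (k : G) (T : M →L[ℝ] N) (y : G) :
    grad q (fun v => T (A v k)) u y = T (grad q A u y k) := by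
  have h := grad_clm (q := q) (T ∘L (ContinuousLinearMap.apply ℝ M k)) hA
  exact congrArg (fun S : G →L[ℝ] N => S y) h

/-- the determinant of a map from vectors to covectors, in the standard bases -/
def mdet (L : E2 →L[ℝ] D2) : ℝ :=
  L (bv 0) (bv 0) * L (bv 1) (bv 1) - L (bv 0) (bv 1) * L (bv 1) (bv 0)

/-- the inverse of a map from vectors to covectors -/
def minv (L : E2 →L[ℝ] D2) : D2 →L[ℝ] E2 :=
  (mdet L)⁻¹ • ((L (bv 1) (bv 1) • (ContinuousLinearMap.apply ℝ ℝ (bv 0) : D2 →L[ℝ] ℝ)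
      - L (bv 1) (bv 0) • (ContinuousLinearMap.apply ℝ ℝ (bv 1) : D2 →L[ℝ] ℝ)).smulRight (bv 0)
    + (L (bv 0) (bv 0) • (ContinuousLinearMap.apply ℝ ℝ (bv 1) : D2 →L[ℝ] ℝ)
      - L (bv 0) (bv 1) • (ContinuousLinearMap.apply ℝ ℝ (bv 0) : D2 →L[ℝ] ℝ)).smulRight (bv 1))

theorem minv_apply (L : E2 →L[ℝ] D2) (y : D2) : minv L y =
    (mdet L)⁻¹ • ((L (bv 1) (bv 1) * y (bv 0) - L (bv 1) (bv 0) * y (bv 1)) • bv 0
      + (L (bv 0) (bv 0) * y (bv 1) - L (bv 0) (bv 1) * y (bv 0)) • bv 1) := by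
  simp [minv]

theorem clm_bv (L : E2 →L[ℝ] D2) (v : E2) : L v = v 0 • L (bv 0) + v 1 • L (bv 1) := by
  conv_lhs => rw [vec_eq v]
  simp

/-- a map with determinant different from zero as an equivalence -/
def mequiv (L : E2 →L[ℝ] D2) (h : mdet L ≠ 0) : E2 ≃L[ℝ] D2 :=
  ContinuousLinearEquiv.equivOfInverse L (minv L)
    (by
      intro v
      rw [minv_apply, clm_bv L v]
      ext i
      fin_cases i
      · simp [bv_apply]
        rw [inv_mul_eq_iff_eq_mul₀ h, mdet]
        ring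
      · simp [bv_apply]
        rw [inv_mul_eq_iff_eq_mul₀ h, mdet]
        ring)
    (by
      intro y
      rw [minv_apply, map_smul, map_add, map_smul, map_smul]
      ext v
      rw [cov_apply _ v, cov_apply y v]
      simp only [_root_.smul_apply, _root_.add_apply, smul_eq_mul]
      have h1 : ∀ c : ℝ, (mdet L)⁻¹ * c = c / mdet L := fun c => by rw [mul_comm]; rfl
      rw [h1, h1, mul_div_assoc', mul_div_assoc', ← add_div, div_eq_iff h, mdet]
      ring)

theorem mequiv_coe (L : E2 →L[ℝ] D2) (h : mdet L ≠ 0) :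
    ((mequiv L h : E2 ≃L[ℝ] D2) : E2 →L[ℝ] D2) = L := rfl

theorem isInvertible_of_mdet {L : E2 →L[ℝ] D2} (h : mdet L ≠ 0) : L.IsInvertible :=
  ⟨mequiv L h, rfl⟩

theorem inverse_eq_minv {L : E2 →L[ℝ] D2} (h : mdet L ≠ 0) : L.inverse = minv L := by
  have h1 := ContinuousLinearMap.inverse_equiv (mequiv L h)
  rw [mequiv_coe] at h1
  rw [h1]
  rfl

theorem nd_of_mdet {f : E2 × E2 → ℝ} {z : E2 × E2} (h : mdet (du (dp f) z) ≠ 0) : Nd f z :=
  isInvertible_of_mdet h

/-- the derivative of the mixed determinant -/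
theorem has_mdet {f : E2 × E2 → ℝ} {z : E2 × E2} (hf : Sm f z) :
    HasFDerivAt (fun p => mdet (du (dp f) (p, z.2)))
      ((du (dp f) z (bv 0) (bv 0)) • ((ContinuousLinearMap.apply ℝ ℝ (bv 1)) ∘L
          (du (dp (dp f)) z (bv 1)))
        + (du (dp f) z (bv 1) (bv 1)) • ((ContinuousLinearMap.apply ℝ ℝ (bv 0)) ∘L
          (du (dp (dp f)) z (bv 0)))
        - ((du (dp f) z (bv 0) (bv 1)) • ((ContinuousLinearMap.apply ℝ ℝ (bv 0)) ∘L
          (du (dp (dp f)) z (bv 1)))
        + (du (dp f) z (bv 1) (bv 0)) • ((ContinuousLinearMap.apply ℝ ℝ (bv 1)) ∘L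
          (du (dp (dp f)) z (bv 0))))) z.1 := by
  have h1 : ∀ i j, HasFDerivAt (fun p => du (dp f) (p, z.2) (bv i) (bv j))
      ((ContinuousLinearMap.apply ℝ ℝ (bv j)) ∘L (du (dp (dp f)) z (bv i))) z.1 := by
    intro i j
    have h2 : HasFDerivAt (fun p => du (dp f) (p, z.2)) (dp (du (dp f)) z) z.1 :=
      has_dp hf.dp.du.diff
    have h3 := ((ContinuousLinearMap.apply ℝ ℝ (bv j)) ∘L
      (ContinuousLinearMap.apply ℝ D2 (bv i) : (E2 →L[ℝ] D2) →L[ℝ] D2)).hasFDerivAt.comp z.1 h2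
    have h4 : ((ContinuousLinearMap.apply ℝ ℝ (bv j)) ∘L
      (ContinuousLinearMap.apply ℝ D2 (bv i) : (E2 →L[ℝ] D2) →L[ℝ] D2)) ∘L (dp (du (dp f)) z)
      = (ContinuousLinearMap.apply ℝ ℝ (bv j)) ∘L (du (dp (dp f)) z (bv i)) := by
      ext w
      have h5 := dp_du hf.dp w (bv i)
      simp only [ContinuousLinearMap.comp_apply, ContinuousLinearMap.apply_apply]
      rw [h5]
    rw [h4] at h3
    exact h3
  have h6 := ((h1 0 0).mul (h1 1 1)).sub ((h1 0 1).mul (h1 1 0))
  exact h6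

/-- **the trace** -/
theorem trace_of_MA {f : E2 × E2 → ℝ} {z : E2 × E2} {lam : ℝ} {a b : E2 → ℝ} (hf : Sm f z)
    (ha : DifferentiableAt ℝ a z.1) (ha0 : a z.1 ≠ 0)
    (hb : ∀ᶠ u in 𝓝 z.2, b u ≠ 0)
    (hMA : ∀ᶠ x in 𝓝 z, |mdet (du (dp f) x)| = Real.exp (lam * f x) * a x.1 * b x.2)
    (y : D2) (w : E2) : ∑ i, Rd f z (dv i) y (bv i) w = lam * y w := by
  have h0 : Tendsto (fun u : E2 => (z.1, u)) (𝓝 z.2) (𝓝 z) := by
    have : ContinuousAt (fun u : E2 => (z.1, u)) z.2 := by fun_prop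
    exact this
  -- the logarithmic derivative of the determinant
  have h1 : ∀ᶠ u in 𝓝 z.2, mdet (du (dp f) (z.1, u)) ≠ 0 ∧
      fderiv ℝ (fun p => mdet (du (dp f) (p, u))) z.1 w
        = mdet (du (dp f) (z.1, u)) * (lam * dp f (z.1, u) w + fderiv ℝ a z.1 w / a z.1) := by
    filter_upwards [h0.eventually hMA.eventually_nhds, h0.eventually hf.ev, hb] with u hu hfu hbu
    have hne : mdet (du (dp f) (z.1, u)) ≠ 0 := by
      have h2 := hu.self_of_nhds
      intro h3
      rw [h3, abs_zero] at h2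
      have h4 : Real.exp (lam * f (z.1, u)) * a z.1 * b u ≠ 0 :=
        mul_ne_zero (mul_ne_zero (Real.exp_pos _).ne' ha0) hbu
      exact h4 h2.symm
    refine ⟨hne, ?_⟩
    have h2 : Tendsto (fun p : E2 => (p, u)) (𝓝 z.1) (𝓝 (z.1, u)) := by
      have : ContinuousAt (fun p : E2 => (p, u)) z.1 := by fun_prop
      exact this
    have h3 : (fun p => mdet (du (dp f) (p, u)) * mdet (du (dp f) (p, u))) =ᶠ[𝓝 z.1]
        fun p => (Real.exp (lam * f (p, u)) * a p * b u) * (Real.exp (lam * f (p, u)) * a p * b u) := by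
      filter_upwards [h2.eventually hu] with p hp
      rw [← hp, abs_mul_abs_self]
    have h4 : HasFDerivAt (fun p => mdet (du (dp f) (p, u)))
        (fderiv ℝ (fun p => mdet (du (dp f) (p, u))) z.1) z.1 :=
      (has_mdet (z := (z.1, u)) hfu).differentiableAt.hasFDerivAt
    have h5 : HasFDerivAt (fun p => f (p, u)) (dp f (z.1, u)) z.1 := has_dp (z := (z.1, u)) hfu.diff
    have e1 : HasFDerivAt (fun p => lam * f (p, u)) (lam • dp f (z.1, u)) z.1 := h5.const_mul lam
    have e2 : HasFDerivAt (fun p => Real.exp (lam * f (p, u)))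
        (Real.exp (lam * f (z.1, u)) • (lam • dp f (z.1, u))) z.1 := e1.exp
    have e3 : HasFDerivAt (fun p => Real.exp (lam * f (p, u)) * a p) _ z.1 :=
      e2.mul ha.hasFDerivAt
    have h6 : HasFDerivAt (fun p => Real.exp (lam * f (p, u)) * a p * b u) _ z.1 :=
      e3.mul_const (b u)
    have h7 : HasFDerivAt (fun p => mdet (du (dp f) (p, u)) * mdet (du (dp f) (p, u))) _ z.1 :=
      h4.mul h4
    have h8 : HasFDerivAt (fun p => (Real.exp (lam * f (p, u)) * a p * b u)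
        * (Real.exp (lam * f (p, u)) * a p * b u)) _ z.1 := h6.mul h6
    have h9 := Filter.EventuallyEq.fderiv_eq (𝕜 := ℝ) h3
    rw [h7.fderiv, h8.fderiv] at h9
    have h10 := congrArg (fun T : D2 => T w) h9
    simp only [_root_.add_apply, _root_.smul_apply, smul_eq_mul] at h10
    have h11 : |mdet (du (dp f) (z.1, u))| = Real.exp (lam * f (z.1, u)) * a z.1 * b u :=
      hu.self_of_nhds
    have h12 : mdet (du (dp f) (z.1, u)) * mdet (du (dp f) (z.1, u))
        = (Real.exp (lam * f (z.1, u)) * a z.1 * b u) * (Real.exp (lam * f (z.1, u)) * a z.1 * b u) := by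
      rw [← h11, abs_mul_abs_self]
    apply mul_left_cancel₀ hne
    have h13 : mdet (du (dp f) (z.1, u)) * (mdet (du (dp f) (z.1, u)) *
        (lam * dp f (z.1, u) w + fderiv ℝ a z.1 w / a z.1))
        = (mdet (du (dp f) (z.1, u)) * mdet (du (dp f) (z.1, u))) *
        (lam * dp f (z.1, u) w + fderiv ℝ a z.1 w / a z.1) := by ring
    rw [h13, h12]
    field_simp
    field_simp at h10
    linear_combination h10
  -- the trace of the first derivative
  have hq : Sm (fun u => dp f (z.1, u)) z.2 := hf.dp.right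
  have hm : Sm (fun u => dp (dp f) (z.1, u)) z.2 := hf.dp.dp.right
  have hn : Nd f z := nd_of_mdet h1.self_of_nhds.1
  have h2 : ∀ᶠ u in 𝓝 z.2, ∑ k, grad (fun u => dp f (z.1, u)) (fun u => dp (dp f) (z.1, u)) u
      (dv k) w (bv k) = (ContinuousLinearMap.apply ℝ ℝ (lam • w)) (dp f (z.1, u))
        + fderiv ℝ a z.1 w / a z.1 := by
    filter_upwards [h1, h0.eventually hf.ev] with u hu hfu
    obtain ⟨hne, hd⟩ := hu
    have h3 := (has_mdet (z := (z.1, u)) hfu).fderiv
    simp only at h3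
    rw [h3] at hd
    have h4 : ∀ k, grad (fun u => dp f (z.1, u)) (fun u => dp (dp f) (z.1, u)) u (dv k)
        = du (dp (dp f)) (z.1, u) (minv (du (dp f) (z.1, u)) (dv k)) := by
      intro k
      rw [← inverse_eq_minv hne]
      rfl
    simp only [h4, minv_apply, Fin.sum_univ_two, dv_apply, bv_apply, map_smul, map_add]
    simp only [_root_.smul_apply, _root_.add_apply, _root_.sub_apply, smul_eq_mul,
      ContinuousLinearMap.comp_apply, ContinuousLinearMap.apply_apply] at hd ⊢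
    have h5 : lam * dp f (z.1, u) w + fderiv ℝ a z.1 w / a z.1
        = (mdet (du (dp f) (z.1, u)))⁻¹ * (mdet (du (dp f) (z.1, u))
          * (lam * dp f (z.1, u) w + fderiv ℝ a z.1 w / a z.1)) := by
      rw [inv_mul_cancel_left₀ hne]
    rw [h5, ← hd]
    norm_num
    ring
  -- the second derivative
  have h3 : grad (fun u => dp f (z.1, u)) (fun u => ∑ k, grad (fun u => dp f (z.1, u))
      (fun u => dp (dp f) (z.1, u)) u (dv k) w (bv k)) z.2 y = lam * y w := by
    rw [(grad_congr (Filter.EventuallyEq.refl _ _) h2).eq_of_nhds,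
      grad_add (hq.clm _).diff (Sm.const _ _).diff, grad_const, add_zero,
      grad_clm _ hq.diff, grad_self hn]
    simp
  have hg : Sm (grad (fun u => dp f (z.1, u)) (fun u => dp (dp f) (z.1, u))) z.2 :=
    sm_grad hq hm hn
  have h5 : ∀ k, grad (fun u => dp f (z.1, u)) (fun u => grad (fun u => dp f (z.1, u))
      (fun u => dp (dp f) (z.1, u)) u (dv k) w (bv k)) z.2 y = Rd f z y (dv k) (bv k) w := by
    intro k
    rw [(Rd_symm4 hf hn).2]
    exact grad_eval hg.diff (dv k) ((ContinuousLinearMap.apply ℝ ℝ (bv k)) ∘L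
        (ContinuousLinearMap.apply ℝ D2 w : (E2 →L[ℝ] D2) →L[ℝ] D2)) y
  have h6 : ∀ k, DifferentiableAt ℝ (fun u => grad (fun u => dp f (z.1, u))
      (fun u => dp (dp f) (z.1, u)) u (dv k) w (bv k)) z.2 := by
    intro k
    exact diff_eval hg.diff (dv k) ((ContinuousLinearMap.apply ℝ ℝ (bv k)) ∘L
        (ContinuousLinearMap.apply ℝ D2 w : (E2 →L[ℝ] D2) →L[ℝ] D2))
  rw [Fin.sum_univ_two, (Rd_symm4 hf hn).1, (Rd_symm4 hf hn).1 (dv 1), ← h5, ← h5, ← h3]
  simp only [Fin.sum_univ_two]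
  rw [grad_add (h6 0) (h6 1)]
  rfl

end Vale.Agent.P207.N3.H576
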