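import Vale.Agent.P207.N3.H576.Tra

/-!
# P207, line N3, P12: the trace free part of the tensor, rotations, the quadratic invariant
-/

noncomputable section

open Set Filter Topology Complex
open scoped ContDiff

namespace Vale.Agent.P207.N3.H576

/-- the pure trace tensor -/
def I0 : T4 := fun y y' w w' => y w * y' w' + y' w * y w'

theorem I0_isT : IsT I0 := by
  refine ⟨fun y' w w' => ⟨fun y z => ?_, fun c y => ?_⟩, fun y w w' => ⟨fun y z => ?_, fun c y => ?_⟩,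
    fun y y' w' => ⟨fun y z => ?_, fun c y => ?_⟩, fun y y' w => ⟨fun y z => ?_, fun c y => ?_⟩⟩
  all_goals
    simp [I0]
    ring

theorem I0_symm4 : Symm4 I0 := by
  refine ⟨fun y y' w w' => ?_, fun y y' w w' => ?_⟩
  · simp only [I0]
    ring
  · simp only [I0]
    ring

theorem I0_act (a : E2 ≃L[ℝ] E2) : Act a I0 I0 := by
  intro y y' w w'
  simp [I0]

theorem I0_trace (y : D2) (w : E2) : ∑ i, I0 (dv i) y (bv i) w = 3 * y w := by
  simp only [I0, Fin.sum_univ_two, dv_apply, bv_apply]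
  rw [cov_apply y w]
  norm_num
  ring

theorem lin_sub_mul {V : Type} [AddCommGroup V] [Module ℝ V] {f g : V → ℝ}
    (hf : IsLinearMap ℝ f) (hg : IsLinearMap ℝ g) (c : ℝ) :
    IsLinearMap ℝ (fun x => f x - c * g x) :=
  ⟨fun x y => by rw [hf.map_add, hg.map_add]; ring,
    fun r x => by rw [hf.map_smul, hg.map_smul]; simp only [smul_eq_mul]; ring⟩

theorem IsT.sub_mul {T T' : T4} (hT : IsT T) (hT' : IsT T') (c : ℝ) :
    IsT (fun y y' w w' => T y y' w w' - c * T' y y' w w') :=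
  ⟨fun y' w w' => lin_sub_mul (hT.l1 y' w w') (hT'.l1 y' w w') c,
    fun y w w' => lin_sub_mul (hT.l2 y w w') (hT'.l2 y w w') c,
    fun y y' w' => lin_sub_mul (hT.l3 y y' w') (hT'.l3 y y' w') c,
    fun y y' w => lin_sub_mul (hT.l4 y y' w) (hT'.l4 y y' w) c⟩

theorem Symm4.sub_mul {T T' : T4} (hT : Symm4 T) (hT' : Symm4 T') (c : ℝ) :
    Symm4 (fun y y' w w' => T y y' w w' - c * T' y y' w w') :=
  ⟨fun y y' w w' => by
    show T y y' w w' - c * T' y y' w w' = T y' y w w' - c * T' y' y w w'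
    rw [hT.1, hT'.1],
  fun y y' w w' => by
    show T y y' w w' - c * T' y y' w w' = T y y' w' w - c * T' y y' w' w
    rw [hT.2, hT'.2]⟩

/-- the trace free part -/
def Wd (lam : ℝ) (f : E2 × E2 → ℝ) (z : E2 × E2) : T4 := fun y y' w w' =>
  Rd f z y y' w w' - lam / 3 * I0 y y' w w'

theorem Wd_isT (lam : ℝ) (f : E2 × E2 → ℝ) (z : E2 × E2) : IsT (Wd lam f z) :=
  (Rd_isT f z).sub_mul I0_isT (lam / 3)

theorem Wd_symm4 (lam : ℝ) {f : E2 × E2 → ℝ} {z : E2 × E2} (hf : Sm f z) (hn : Nd f z) :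
    Symm4 (Wd lam f z) := (Rd_symm4 hf hn).sub_mul I0_symm4 (lam / 3)

theorem Wd_trFree {lam : ℝ} {f : E2 × E2 → ℝ} {z : E2 × E2}
    (h : ∀ (y : D2) (w : E2), ∑ i, Rd f z (dv i) y (bv i) w = lam * y w) :
    TrFree (Wd lam f z) := by
  intro y w
  have h1 := h y w
  have h2 := I0_trace y w
  simp only [Wd, Fin.sum_univ_two] at h1 h2 ⊢
  linear_combination h1 - lam / 3 * h2

theorem Wd_act (lam : ℝ) {f f' : E2 × E2 → ℝ} {z z' : E2 × E2} {a : E2 ≃L[ℝ] E2}
    (h : Act a (Rd f z) (Rd f' z')) : Act a (Wd lam f z) (Wd lam f' z') := by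
  intro y y' w w'
  simp only [Wd]
  rw [h, I0_act a]

/-- the components of a transformed tensor -/
theorem Act.co_eq {a : E2 ≃L[ℝ] E2} {T T' : T4} (h : Act a T T') (hT : IsT T) (k l i j : Fin 2) :
    co T' k l i j = ∑ k', ∑ l', ∑ i', ∑ j', (a.symm (bv k')) k * (a.symm (bv l')) l
      * (a (bv i)) i' * (a (bv j)) j' * co T k' l' i' j' := by
  rw [co, h, hT.expand]
  rfl

/-- **the component of weight four under a rotation** -/
theorem cF_rot {a : E2 ≃L[ℝ] E2} {T T' : T4} (h : Act a T T') (hT : IsT T) {θ : ℝ}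
    (h0 : a (bv 0) = Real.cos θ • bv 0 + Real.sin θ • bv 1)
    (h1 : a (bv 1) = - Real.sin θ • bv 0 + Real.cos θ • bv 1) :
    cF T' = exp (-4 * θ * I) * cF T := by
  set c := Real.cos θ
  set s := Real.sin θ
  have hcs : c ^ 2 + s ^ 2 = 1 := Real.cos_sq_add_sin_sq θ
  have g0 : a.symm (bv 0) = c • bv 0 - s • bv 1 := by
    rw [ContinuousLinearEquiv.symm_apply_eq, map_sub, map_smul, map_smul, h0, h1]
    ext i
    fin_cases i
    · simp [bv_apply]
      linarith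
    · simp [bv_apply]
      ring
  have g1 : a.symm (bv 1) = s • bv 0 + c • bv 1 := by
    rw [ContinuousLinearEquiv.symm_apply_eq, map_add, map_smul, map_smul, h0, h1]
    ext i
    fin_cases i
    · simp [bv_apply]
      ring
    · simp [bv_apply]
      linarith
  have e : exp (-4 * θ * I) = ((c : ℂ) - s * I) ^ 4 := by
    have e1 : exp (-4 * θ * I) = (exp (-(θ * I))) ^ 4 := by
      rw [← Complex.exp_nat_mul]
      congr 1
      push_cast
      ring
    have e2 : exp (-(θ * I)) = (c : ℂ) - s * I := by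
      have : -((θ : ℂ) * I) = ((-θ : ℝ) : ℂ) * I := by push_cast; ring
      rw [this, Complex.exp_mul_I, ← Complex.ofReal_cos, ← Complex.ofReal_sin, Real.cos_neg,
        Real.sin_neg, Complex.ofReal_neg]
      change (c : ℂ) + -(s : ℂ) * I = c - s * I
      ring
    rw [e1, e2]
  have a00 : (a (bv 0)) 0 = c := by rw [h0]; simp [bv_apply]
  have a01 : (a (bv 0)) 1 = s := by rw [h0]; simp [bv_apply]
  have a10 : (a (bv 1)) 0 = -s := by rw [h1]; simp [bv_apply]
  have a11 : (a (bv 1)) 1 = c := by rw [h1]; simp [bv_apply]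
  have b00 : (a.symm (bv 0)) 0 = c := by rw [g0]; simp [bv_apply]
  have b01 : (a.symm (bv 0)) 1 = -s := by rw [g0]; simp [bv_apply]
  have b10 : (a.symm (bv 1)) 0 = s := by rw [g1]; simp [bv_apply]
  have b11 : (a.symm (bv 1)) 1 = c := by rw [g1]; simp [bv_apply]
  -- the four factors
  have v0 : ∑ i, zz i * ((a (bv i)) 0 : ℂ) = (c - s * I) * zz 0 := by
    rw [Fin.sum_univ_two, a00, a10, zz_zero, zz_one]
    push_cast
    ring
  have v1 : ∑ i, zz i * ((a (bv i)) 1 : ℂ) = (c - s * I) * zz 1 := by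
    rw [Fin.sum_univ_two, a01, a11, zz_zero, zz_one]
    linear_combination (s : ℂ) * (Complex.I_sq)
  have w0 : ∑ k, zz k * ((a.symm (bv 0)) k : ℂ) = (c - s * I) * zz 0 := by
    rw [Fin.sum_univ_two, b00, b01, zz_zero, zz_one]
    push_cast
    ring
  have w1 : ∑ k, zz k * ((a.symm (bv 1)) k : ℂ) = (c - s * I) * zz 1 := by
    rw [Fin.sum_univ_two, b10, b11, zz_zero, zz_one]
    linear_combination (s : ℂ) * (Complex.I_sq)
  have v : ∀ m, ∑ i, zz i * ((a (bv i)) m : ℂ) = (c - s * I) * zz m := by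
    intro m
    fin_cases m
    · exact v0
    · exact v1
  have w : ∀ m, ∑ k, zz k * ((a.symm (bv m)) k : ℂ) = (c - s * I) * zz m := by
    intro m
    fin_cases m
    · exact w0
    · exact w1
  have e3 : cF T' = ∑ k', ∑ l', ∑ i', ∑ j',
      (∑ k, zz k * ((a.symm (bv k')) k : ℂ)) * (∑ l, zz l * ((a.symm (bv l')) l : ℂ))
      * (∑ i, zz i * ((a (bv i)) i' : ℂ)) * (∑ j, zz j * ((a (bv j)) j' : ℂ))
      * (co T k' l' i' j' : ℂ) := by
    rw [cF]
    simp only [h.co_eq hT, Fin.sum_univ_two]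
    push_cast
    ring
  rw [e3, e, cF]
  simp only [v, w, Finset.mul_sum]
  refine Finset.sum_congr rfl fun k _ => Finset.sum_congr rfl fun l _ =>
    Finset.sum_congr rfl fun i _ => Finset.sum_congr rfl fun j _ => ?_
  ring

/-- contraction does not depend on the basis -/
theorem contr {B : D2 → E2 → ℝ} (h1 : ∀ w, IsLinearMap ℝ (fun y => B y w))
    (h2 : ∀ y, IsLinearMap ℝ (fun w => B y w)) (a : E2 ≃L[ℝ] E2) :
    ∑ i, B (dv i ∘L (a.symm : E2 →L[ℝ] E2)) (a (bv i)) = ∑ i, B (dv i) (bv i) := by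
  have h3 : ∀ (z : D2) (v : E2), B z v = ∑ k, ∑ i, z (bv k) * v i * B (dv k) (bv i) := by
    intro z v
    have f1 := (h1 v).map_add (z (bv 0) • dv 0) (z (bv 1) • dv 1)
    rw [← cov_eq z] at f1
    have f2 := (h1 v).map_smul (z (bv 0)) (dv 0)
    have f3 := (h1 v).map_smul (z (bv 1)) (dv 1)
    have f4 := fun k => (h2 k).map_add (v 0 • bv 0) (v 1 • bv 1)
    have f5 := fun k => (h2 k).map_smul (v 0) (bv 0)
    have f6 := fun k => (h2 k).map_smul (v 1) (bv 1)
    simp only [← vec_eq v, smul_eq_mul] at f1 f2 f3 f4 f5 f6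
    simp only [Fin.sum_univ_two]
    rw [f1, f2, f3, f4 (dv 0), f4 (dv 1), f5 (dv 0), f5 (dv 1), f6 (dv 0), f6 (dv 1)]
    ring
  obtain ⟨p, q, r, s, e, he, g1, g2, g3, g4, g5, g6, g7, g8⟩ := inv_matrix a.symm
  simp only [ContinuousLinearEquiv.symm_symm] at g1 g2 g3 g4
  simp only [Fin.sum_univ_two]
  rw [h3, h3 (dv 1 ∘L (a.symm : E2 →L[ℝ] E2))]
  simp only [Fin.sum_univ_two, ContinuousLinearMap.comp_apply, ContinuousLinearEquiv.coe_coe,
    dv_apply, g1, g2, g3, g4, g5, g6, g7, g8]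
  linear_combination (B (dv 0) (bv 0) + B (dv 1) (bv 1)) * he

theorem lin_mul_const {V : Type} [AddCommGroup V] [Module ℝ V] {f : V → ℝ}
    (hf : IsLinearMap ℝ f) (c : ℝ) : IsLinearMap ℝ (fun x => f x * c) :=
  ⟨fun x y => by rw [hf.map_add]; ring,
    fun r x => by rw [hf.map_smul]; simp only [smul_eq_mul]; ring⟩

theorem lin_const_mul {V : Type} [AddCommGroup V] [Module ℝ V] {f : V → ℝ}
    (hf : IsLinearMap ℝ f) (c : ℝ) : IsLinearMap ℝ (fun x => c * f x) :=
  ⟨fun x y => by rw [hf.map_add]; ring,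
    fun r x => by rw [hf.map_smul]; simp only [smul_eq_mul]; ring⟩

/-- **the quadratic invariant is invariant** -/
theorem kap_act {a : E2 ≃L[ℝ] E2} {T T' : T4} (h : Act a T T') (hT : IsT T) : kap T' = kap T := by
  set c : Fin 2 → D2 := fun k => dv k ∘L (a.symm : E2 →L[ℝ] E2) with hc
  set b : Fin 2 → E2 := fun k => a (bv k) with hb
  have e1 : kap T' = ∑ k, ∑ l, ∑ i, ∑ j, T (c k) (c l) (b i) (b j) * T (c i) (c j) (b k) (b l) := by
    rw [kap]
    refine Finset.sum_congr rfl fun k _ => Finset.sum_congr rfl fun l _ =>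
      Finset.sum_congr rfl fun i _ => Finset.sum_congr rfl fun j _ => ?_
    rw [co, co, h, h]
  have s1 : ∀ l i j, ∑ k, T (c k) (c l) (b i) (b j) * T (c i) (c j) (b k) (b l)
      = ∑ k, T (dv k) (c l) (b i) (b j) * T (c i) (c j) (bv k) (b l) := fun l i j =>
    contr (B := fun y w => T y (c l) (b i) (b j) * T (c i) (c j) w (b l))
      (fun w => lin_mul_const (hT.l1 _ _ _) _) (fun y => lin_const_mul (hT.l3 _ _ _) _) a
  have s2 : ∀ k i j, ∑ l, T (dv k) (c l) (b i) (b j) * T (c i) (c j) (bv k) (b l)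
      = ∑ l, T (dv k) (dv l) (b i) (b j) * T (c i) (c j) (bv k) (bv l) := fun k i j =>
    contr (B := fun y w => T (dv k) y (b i) (b j) * T (c i) (c j) (bv k) w)
      (fun w => lin_mul_const (hT.l2 _ _ _) _) (fun y => lin_const_mul (hT.l4 _ _ _) _) a
  have s3 : ∀ k l j, ∑ i, T (dv k) (dv l) (b i) (b j) * T (c i) (c j) (bv k) (bv l)
      = ∑ i, T (dv k) (dv l) (bv i) (b j) * T (dv i) (c j) (bv k) (bv l) := fun k l j =>
    contr (B := fun y w => T (dv k) (dv l) w (b j) * T y (c j) (bv k) (bv l))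
      (fun w => lin_const_mul (hT.l1 _ _ _) _) (fun y => lin_mul_const (hT.l3 _ _ _) _) a
  have s4 : ∀ k l i, ∑ j, T (dv k) (dv l) (bv i) (b j) * T (dv i) (c j) (bv k) (bv l)
      = ∑ j, T (dv k) (dv l) (bv i) (bv j) * T (dv i) (dv j) (bv k) (bv l) := fun k l i =>
    contr (B := fun y w => T (dv k) (dv l) (bv i) w * T (dv i) y (bv k) (bv l))
      (fun w => lin_const_mul (hT.l2 _ _ _) _) (fun y => lin_mul_const (hT.l4 _ _ _) _) a
  rw [e1, kap]
  simp only [Fin.sum_univ_two] at s1 s2 s3 s4 ⊢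
  simp only [co]
  linear_combination (s1 0 0 0) + (s1 0 0 1) + (s1 0 1 0) + (s1 0 1 1) + (s1 1 0 0) + (s1 1 0 1)
    + (s1 1 1 0) + (s1 1 1 1) + (s2 0 0 0) + (s2 0 0 1) + (s2 0 1 0) + (s2 0 1 1) + (s2 1 0 0)
    + (s2 1 0 1) + (s2 1 1 0) + (s2 1 1 1) + (s3 0 0 0) + (s3 0 0 1) + (s3 0 1 0) + (s3 0 1 1)
    + (s3 1 0 0) + (s3 1 0 1) + (s3 1 1 0) + (s3 1 1 1) + (s4 0 0 0) + (s4 0 0 1) + (s4 0 1 0)
    + (s4 0 1 1) + (s4 1 0 0) + (s4 1 0 1) + (s4 1 1 0) + (s4 1 1 1)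

end Vale.Agent.P207.N3.H576
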